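import Mathlib

/-! The substitution a -> aaba, b -> bbab and its words. -/

namespace Vale.Agent.P189

abbrev Lt := Bool × Bool

def inv (l : Lt) : Lt := (l.1, !l.2)

@[simp] lemma inv_inv' (l : Lt) : inv (inv l) = l := by simp [inv]

lemma inv_ne (l : Lt) : inv l ≠ l := by
  rcases l with ⟨x, b⟩; cases b <;> simp [inv]

lemma inv_injective : Function.Injective inv := fun a b h => by
  rw [← inv_inv' a, h, inv_inv']

def nx (s : Lt) : Lt := if s.2 then (!s.1, false) else (s.1, true)

def tau (i : ℕ) : Bool :=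
  if h : i = 0 then false else xor (decide (i % 4 = 2)) (tau (i / 4))
termination_by i
decreasing_by omega

lemma tau_zero : tau 0 = false := by rw [tau]; simp

lemma tau_eq (q r : ℕ) (hr : r < 4) : tau (4 * q + r) = xor (decide (r = 2)) (tau q) := by
  by_cases h : 4 * q + r = 0
  · have hq : q = 0 := by omega
    have hr0 : r = 0 := by omega
    subst hq; subst hr0; simp [tau_zero]
  · rw [tau, dif_neg h]
    have h1 : (4 * q + r) % 4 = r := by omega
    have h2 : (4 * q + r) / 4 = q := by omega
    rw [h1, h2]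

lemma tau0 (q : ℕ) : tau (4 * q) = tau q := by simpa using tau_eq q 0 (by norm_num)
lemma tau1 (q : ℕ) : tau (4 * q + 1) = tau q := by simpa using tau_eq q 1 (by norm_num)
lemma tau2 (q : ℕ) : tau (4 * q + 2) = !tau q := by simpa using tau_eq q 2 (by norm_num)
lemma tau3 (q : ℕ) : tau (4 * q + 3) = tau q := by simpa using tau_eq q 3 (by norm_num)

lemma tau_one : tau 1 = false := by simpa [tau_zero] using tau1 0
lemma tau_two : tau 2 = true := by simpa [tau_zero] using tau2 0

lemma tau_last (k : ℕ) : tau (4 ^ k - 1) = false := by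
  induction k with
  | zero => simp [tau_zero]
  | succ k ih =>
    have hp : 0 < 4 ^ k := by positivity
    have : 4 ^ (k + 1) - 1 = 4 * (4 ^ k - 1) + 3 := by rw [pow_succ]; omega
    rw [this, tau3, ih]

lemma border (k : ℕ) : ∀ (l : ℕ) (x y : Bool), 0 < l → l < 4 ^ k →
    (∀ i < l, xor x (tau i) = xor y (tau (4 ^ k - l + i))) →
    x = y ∧ tau l = false ∧ tau (4 ^ k - l - 1) = true := by
  induction k with
  | zero => intro l x y h1 h2; simp at h2; omega
  | succ k ih =>
    intro l x y h1 h2 h
    have hp : 0 < 4 ^ k := by positivity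
    rw [pow_succ] at h2 h ⊢
    by_cases hl1 : l = 1
    · subst hl1
      have h0 := h 0 (by norm_num)
      have e1 : 4 ^ k * 4 - 1 + 0 = 4 * (4 ^ k - 1) + 3 := by omega
      have e2 : 4 ^ k * 4 - 1 - 1 = 4 * (4 ^ k - 1) + 2 := by omega
      rw [e1, tau3, tau_last, tau_zero] at h0
      rw [e2, tau2, tau_last]
      exact ⟨by simpa using h0, tau_one, rfl⟩
    · have hl2 : 2 ≤ l := by omega
      obtain ⟨q, r, hr, hd⟩ : ∃ q r, r < 4 ∧ 4 ^ k * 4 - l = 4 * q + r :=
        ⟨(4 ^ k * 4 - l) / 4, (4 ^ k * 4 - l) % 4, by omega, by omega⟩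
      have h0 := h 0 (by omega)
      have h1' := h 1 (by omega)
      rw [hd, tau_zero] at h0
      rw [hd, tau_one] at h1'
      interval_cases r
      · obtain ⟨l', rfl⟩ : ∃ l', l = 4 * l' := ⟨l / 4, by omega⟩
        have := ih l' x y (by omega) (by omega) (fun i hi => by
          have h4 := h (4 * i) (by omega)
          have e : 4 ^ k * 4 - 4 * l' + 4 * i = 4 * (4 ^ k - l' + i) := by omega
          rwa [e, tau0, tau0] at h4)
        refine ⟨this.1, by rw [tau0]; exact this.2.1, ?_⟩
        have e : 4 ^ k * 4 - 4 * l' - 1 = 4 * (4 ^ k - l' - 1) + 3 := by omega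
        rw [e, tau3]; exact this.2.2
      · exfalso
        have e : 4 * q + 1 + 1 = 4 * q + 2 := by omega
        rw [add_zero, tau1] at h0
        rw [e, tau2] at h1'
        revert h0 h1'; cases x <;> cases y <;> cases tau q <;> simp
      · exfalso
        have e : 4 * q + 2 + 1 = 4 * q + 3 := by omega
        rw [add_zero, tau2] at h0
        rw [e, tau3] at h1'
        revert h0 h1'; cases x <;> cases y <;> cases tau q <;> simp
      · exfalso
        have h2' := h 2 (by omega)
        rw [hd, tau_two] at h2'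
        have e1 : 4 * q + 3 + 1 = 4 * (q + 1) := by omega
        have e2 : 4 * q + 3 + 2 = 4 * (q + 1) + 1 := by omega
        rw [e1, tau0] at h1'
        rw [e2, tau1] at h2'
        revert h2' h1'; cases x <;> cases y <;> cases tau (q + 1) <;> simp

/-- the signed word of length `n` -/
def ws (n : ℕ) (s : Lt) (i : ℕ) : Lt :=
  if s.2 then (xor s.1 (tau i), true) else (xor s.1 (tau (n - 1 - i)), false)

lemma ws_snd (n : ℕ) (s : Lt) (i : ℕ) : (ws n s i).2 = s.2 := by
  unfold ws; split_ifs with h <;> simp [h]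

lemma ws_zero (k : ℕ) (s : Lt) : ws (4 ^ k) s 0 = s := by
  rcases s with ⟨x, b⟩
  cases b <;> simp [ws, tau_zero, tau_last]

lemma ws_red (n : ℕ) (s : Lt) (i j : ℕ) : ws n s j ≠ inv (ws n s i) := by
  intro h
  have := congrArg Prod.snd h
  simp [inv, ws_snd] at this

lemma ws_border (k : ℕ) (s s' : Lt) (l : ℕ) (h1 : 0 < l) (h2 : l < 4 ^ k)
    (h : ∀ i < l, ws (4 ^ k) s' i = inv (ws (4 ^ k) s (l - 1 - i))) :
    ws (4 ^ k) s' l = nx s := by
  rcases s with ⟨x, b⟩
  rcases s' with ⟨y, b'⟩
  have hb := congrArg Prod.snd (h 0 h1)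
  simp only [inv, ws_snd] at hb
  cases b
  · have hb' : b' = true := by simpa using hb
    subst hb'
    have := border k l y x h1 h2 (fun i hi => by
      have h3 := congrArg Prod.fst (h i hi)
      have e : 4 ^ k - 1 - (l - 1 - i) = 4 ^ k - l + i := by omega
      simpa [ws, inv, e] using h3)
    simp [ws, nx, this.1, this.2.1]
  · have hb' : b' = false := by simpa using hb
    subst hb'
    have := border k l x y h1 h2 (fun j hj => by
      have h3 := congrArg Prod.fst (h (l - 1 - j) (by omega))
      have e : 4 ^ k - 1 - (l - 1 - j) = 4 ^ k - l + j := by omega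
      have e2 : l - 1 - (l - 1 - j) = j := by omega
      simp only [ws, inv, e, e2] at h3
      simpa using h3.symm)
    have e : 4 ^ k - 1 - l = 4 ^ k - l - 1 := by omega
    simp [ws, nx, this.1, e, this.2.2]

lemma nx_cycle (P : Lt → Prop) (h : ∀ s, P s → P (nx s)) (s t : Lt) (hs : P s) : P t := by
  have h1 := h _ hs
  have h2 := h _ h1
  have h3 := h _ h2
  rcases s with ⟨x, b⟩
  rcases t with ⟨y, c⟩
  cases x <;> cases b <;> cases y <;> cases c <;> simp_all [nx]

end Vale.Agent.P189
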