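import Vale.Agent.P189.Defs
import Vale.Agent.P189.Word

/-! Interface: an increasing union of free groups of rank two along a -> aaba, b -> bbab. -/

open MeasureTheory
open scoped ENNReal

namespace Vale.Agent.P189

abbrev F2 := FreeGroup Bool

/-- The substitution as an endomorphism of the free group. -/
def phi : F2 →* F2 :=
  FreeGroup.lift fun x => FreeGroup.of x * FreeGroup.of x * FreeGroup.of (!x) * FreeGroup.of x

lemma phi_of (x : Bool) : phi (FreeGroup.of x) =
    FreeGroup.of x * FreeGroup.of x * FreeGroup.of (!x) * FreeGroup.of x := by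
  simp [phi]

structure Tower (Γ : Type) [Group Γ] where
  ι : ℕ → F2 →* Γ
  inj : ∀ n, Function.Injective (ι n)
  compat : ∀ n w, ι n w = ι (n + 1) (phi w)
  exh : ∀ g, ∃ n w, ι n w = g

/-- The fair coin. -/
noncomputable def coin : Measure Bool := (PMF.uniformOfFintype Bool).toMeasure

instance : IsProbabilityMeasure coin := by unfold coin; infer_instance

/-- The Bernoulli measure. -/
noncomputable def bm (Γ : Type) : Measure (Γ → Bool) := Measure.infinitePi fun _ => coin

instance (Γ : Type) : IsProbabilityMeasure (bm Γ) := by unfold bm; infer_instance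

lemma bm_shift {Γ : Type} [Group Γ] (g : Γ) :
    MeasurePreserving (fun (x : Γ → Bool) (h : Γ) => x (g * h)) (bm Γ) (bm Γ) := by
  refine ⟨measurable_pi_lambda _ fun h => measurable_pi_apply _, ?_⟩
  have := Measure.infinitePi_map_piCongrLeft (fun _ : Γ => coin) (Equiv.mulLeft g⁻¹)
  unfold bm
  rw [← this]
  congr 1
  · funext x h
    have h2 := Equiv.piCongrLeft_apply_apply (fun _ : Γ => Bool) (Equiv.mulLeft g⁻¹) x (g * h)
    simp only [Equiv.coe_mulLeft, inv_mul_cancel_left] at h2
    simpa [MeasurableEquiv.piCongrLeft] using h2.symm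

/-- The Bernoulli shift as a right action. -/
def bern (Γ : Type) [Group Γ] : PMPAction Γ (Γ → Bool) (bm Γ) where
  act x g := fun h => x (g * h)
  act_one x := by simp
  act_mul x g h := by funext k; simp [mul_assoc]
  mp g := bm_shift g

end Vale.Agent.P189
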