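import Vale.Agent.P189.Core
import Vale.Agent.P189.Tower

/-! The graph of arcs attached to an action of the free group. -/

open MeasureTheory
open scoped ENNReal

namespace Vale.Agent.P189
open Finset
open scoped Classical

def ev (l : Lt) : F2 := FreeGroup.mk [l]

lemma ev_inv (l : Lt) : ev (inv l) = (ev l)⁻¹ := by
  simp [ev, inv, FreeGroup.invRev]

def prd (f : ℕ → Lt) : ℕ → F2
  | 0 => 1
  | i + 1 => prd f i * ev (f i)

def sub (k : ℕ) (x : Bool) : F2 := prd (ws (4 ^ k) (x, true)) (4 ^ k)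

lemma prd_list (L : List Lt) (i : ℕ) (hi : i ≤ L.length) :
    prd (fun i => L.getD i (false, false)) i = FreeGroup.mk (L.take i) := by
  induction i with
  | zero => rfl
  | succ i ih =>
    rw [prd, ih (by omega), ev, FreeGroup.mul_mk, List.take_add_one,
      List.getElem?_eq_getElem (by omega), List.getD_eq_getElem _ _ (by omega)]
    rfl

section
variable (k : ℕ) (D : Finset F2)

def len : Bool ⊕ D → ℕ
  | .inl _ => 4 ^ k
  | .inr d => d.1.toWord.length

def wf : Bool ⊕ D → ℕ → Lt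
  | .inl x => ws (4 ^ k) (x, true)
  | .inr d => fun i => d.1.toWord.getD i (false, false)

lemma wf_red (c : Bool ⊕ D) (i : ℕ) (hi : i + 1 < len k D c) :
    wf k D c (i + 1) ≠ inv (wf k D c i) := by
  rcases c with x | d
  · exact ws_red _ _ _ _
  · simp only [len] at hi
    simp only [wf]
    rw [List.getD_eq_getElem _ _ hi, List.getD_eq_getElem _ _ (by omega)]
    have := (List.isChain_iff_getElem.1 (FreeGroup.isReduced_toWord (x := d.1))) i hi
    intro h
    rw [h] at this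
    simp [inv] at this

def pos (c : Bool ⊕ D) (i : ℕ) : Option ((Bool ⊕ D) × ℕ) :=
  if i = 0 ∨ i = len k D c then none else some (c, i)

variable {k D}

lemma pos_inj {c c' : Bool ⊕ D} {i i' : ℕ} (h : pos k D c i = pos k D c' i')
    (hn : pos k D c i ≠ none) : c = c' ∧ i = i' := by
  unfold pos at h hn
  split_ifs at h hn <;> simp_all

lemma pos_ne {c : Bool ⊕ D} {i : ℕ} : pos k D c i ≠ none ↔ i ≠ 0 ∧ i ≠ len k D c := by
  unfold pos
  split_ifs with h
  · simp only [ne_eq, not_true_eq_false, false_iff]; tauto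
  · simp only [ne_eq, reduceCtorEq, not_false_eq_true, true_iff]; tauto

variable (k D)
variable {X : Type} [MeasurableSpace X] {μ : Measure X} (a : PMPAction F2 X μ) (A : F2 → Set X)

def AA : Bool ⊕ D → Set X
  | .inl _ => Set.univ
  | .inr d => A d

def fi (i : ℕ) : Fin (4 ^ k) := if h : i < 4 ^ k then ⟨i, h⟩ else ⟨0, by positivity⟩

lemma fi_val {i : ℕ} (hi : i < 4 ^ k) : (fi k i).1 = i := by simp [fi, hi]

noncomputable def fg : FG X (Σ c : Bool ⊕ D, Fin (len k D c)) (Option ((Bool ⊕ D) × ℕ)) where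
  mv y l := a.act y (ev l)
  mv_inv y l := by rw [a.act_mul, ev_inv, mul_inv_cancel, a.act_one]
  w e := wf k D e.1 e.2
  s e := pos k D e.1 e.2
  t e := pos k D e.1 (e.2 + 1)
  P y e := a.act y (prd (wf k D e.1) e.2)⁻¹ ∈ AA D A e.1
  b := none
  s_inj := by
    rintro ⟨c, i⟩ ⟨c', i'⟩ h hn
    obtain ⟨h1, h2⟩ := pos_inj h hn
    subst h1
    exact congrArg (Sigma.mk _) (Fin.ext h2)
  t_inj := by
    rintro ⟨c, i⟩ ⟨c', i'⟩ h hn
    obtain ⟨h1, h2⟩ := pos_inj h hn
    subst h1
    exact congrArg (Sigma.mk _) (Fin.ext (Nat.succ_injective h2))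
  nd_t := by
    rintro y ⟨c, i⟩ hp hn
    have h1 := (pos_ne.1 hn).2
    have h2 := i.2
    simp only at h1 hp
    refine ⟨⟨c, ⟨i + 1, by omega⟩⟩, ?_, rfl, wf_red k D c i (by omega)⟩
    simpa [prd, a.act_mul] using hp
  nd_s := by
    rintro y ⟨c, ⟨i, hi⟩⟩ hp hn
    have h1 := (pos_ne.1 hn).1
    obtain ⟨j, rfl⟩ := Nat.exists_eq_succ_of_ne_zero h1
    refine ⟨⟨c, ⟨j, by omega⟩⟩, ?_, rfl, wf_red k D c j hi⟩
    simpa [prd, a.act_mul, ev_inv] using hp

noncomputable def fs : FS X (Σ c : Bool ⊕ D, Fin (len k D c)) (Option ((Bool ⊕ D) × ℕ)) where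
  toFG := fg k D a A
  k := k
  pt y s i := a.act y (prd (ws (4 ^ k) s) i)
  pt0 y s := a.act_one y
  ptS y s i := (a.act_mul _ _ _).symm
  ar s i := if s.2 then (⟨.inl s.1, fi k i⟩, true) else (⟨.inl s.1, fi k (4 ^ k - 1 - i)⟩, false)
  vx s i := if s.2 then pos k D (.inl s.1) i else pos k D (.inl s.1) (4 ^ k - i)
  vx0 s := by split_ifs <;> simp [pos, len, fg]
  vxL s := by split_ifs <;> simp [pos, len, fg]
  vx_ne s i h0 hi := by
    split_ifs
    · exact pos_ne.2 ⟨by omega, by simp only [len]; omega⟩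
    · exact pos_ne.2 ⟨by omega, by simp only [len]; omega⟩
  ar_lab := by
    rintro ⟨x, _ | _⟩ i hi
    · simp [FG.lab, fg, wf, fi_val k (show 4 ^ k - 1 - i < 4 ^ k by omega), ws, inv]
    · simp [FG.lab, fg, wf, fi_val k hi]
  ar_src := by
    rintro ⟨x, _ | _⟩ i hi
    · have e : 4 ^ k - 1 - i + 1 = 4 ^ k - i := by omega
      simp [FG.src, fg, fi_val k (show 4 ^ k - 1 - i < 4 ^ k by omega), e]
    · simp [FG.src, fg, fi_val k hi]
  ar_tgt := by
    rintro ⟨x, _ | _⟩ i hi
    · have e : 4 ^ k - 1 - i = 4 ^ k - (i + 1) := by omega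
      simp [FG.tgt, fg, fi_val k (show 4 ^ k - (i + 1) < 4 ^ k by omega), e]
    · simp [FG.tgt, fg, fi_val k hi]
  ar_pres := by
    rintro y ⟨x, _ | _⟩ i hi <;> simp [FG.pres, fg, AA]

lemma arc_RR {K : Type} (κ : X → K) (f) (c : Bool ⊕ D) (y : X) (hy : y ∈ AA D A c) (i : ℕ)
    (hi : i ≤ len k D c) : (fg k D a A).RR κ f y none (prd (wf k D c) i)
      (a.act y (prd (wf k D c) i)) (pos k D c i) := by
  induction i with
  | zero =>
    have : pos k D c 0 = none := by simp [pos]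
    rw [this, prd, a.act_one]
    exact FG.RR.one
  | succ i ih =>
    have := FG.RR.edge (G := fg k D a A) (κ := κ) (f := f) (y := a.act y (prd (wf k D c) i))
      (h := (⟨c, ⟨i, hi⟩⟩, true)) (by simpa [FG.pres, fg, a.act_mul, a.act_one] using hy)
    rw [prd, ← a.act_mul]
    exact (ih (by omega)).mul this

end

lemma sum_fin_le (n : ℕ) (g : ℕ → ℝ≥0∞) (B : ℝ≥0∞) (h : ∀ i, 0 < i → i < n → g i = 0)
    (h0 : g 0 ≤ B) : ∑ i : Fin n, g i ≤ B := by
  rw [Fin.sum_univ_eq_sum_range]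
  rcases n with _ | n
  · simp
  · rw [sum_range_succ', sum_eq_zero fun i hi => h _ (by omega) (by simpa using hi), zero_add]
    exact h0

theorem fcore {X : Type} [MeasurableSpace X] {μ : Measure X} [IsProbabilityMeasure μ]
    (a : PMPAction F2 X μ) (k : ℕ) (D : Finset F2) (A : F2 → Set X)
    (hA : ∀ d, MeasurableSet (A d))
    (small : ∀ η : ℝ≥0∞, η ≠ 0 → ∃ (K : Type) (_ : Countable K) (κ : X → K),
      (∀ j, MeasurableSet {y | κ y = j}) ∧ ∀ j, μ {y | κ y = j} ≤ η)
    (E0 : Set X) (hE : 1 / 2 < μ E0)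
    (hconn : ∀ BB : X → F2 → Prop, (∀ y, BB y 1) →
      (∀ y v v', BB y v → BB (a.act y v) v' → BB y (v * v')) →
      (∀ y v, BB y v → BB (a.act y v) v⁻¹) → (∀ y x, BB y (sub (k + 1) x)) →
      (∀ y, ∀ d ∈ D, y ∈ A d → BB y d) → ∀ y ∈ E0, BB y (sub k false)) :
    ∃ U : Set X, MeasurableSet U ∧ 4 / 10 ≤ μ.real U ∧ μ.real U ≤ 1 / 2 ∧
      ∀ x, μ (U \ (fun y => a.act y (sub (k + 1) x)) ⁻¹' U) ≤ 12 * ∑ d ∈ D, μ (A d) := by
  set S := fs (k + 1) D a A with hS
  have mA : ∀ c, MeasurableSet (AA D A c) := by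
    rintro (x | d)
    · exact MeasurableSet.univ
    · exact hA _
  have M : S.Ms := ⟨fun l => (a.mp _).measurable, fun e => (a.mp _).measurable (mA _)⟩
  set N : ℕ := 20 * 4 ^ (k + 1) with hN
  have hN0 : (N : ℝ≥0∞) ≠ 0 := by simp [hN]
  obtain ⟨K, _, κ, hκ, hη⟩ := small ((N : ℝ≥0∞)⁻¹ * (1 / 10)) (by simp)
  have hp : 0 < 4 ^ k := by positivity
  obtain ⟨U, h1, h2, h3, h4⟩ := FS.core M (fun l => a.mp _) κ hκ (fun j => by
      refine (mul_le_mul_right (hη j) _).trans ?_
      show (N : ℝ≥0∞) * _ ≤ _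
      rw [← mul_assoc, ENNReal.mul_inv_cancel hN0 (by simp), one_mul])
    (ε := ∑ d ∈ D, μ (A d)) (by
      rw [Fintype.sum_sigma]
      refine (sum_le_sum (g := fun c => μ (AA D A c)) fun c _ => ?_).trans ?_
      · refine sum_fin_le _ (fun i => μ {y | a.act y (prd (wf (k + 1) D c) i)⁻¹ ∈ AA D A c ∧
          pos (k + 1) D c i = none}) _ (fun i h0 hi => ?_) (measure_mono fun y hy => ?_)
        · have : pos (k + 1) D c i ≠ none := pos_ne.2 ⟨by omega, by omega⟩
          simp [this]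
        · simpa [prd, a.act_one] using hy.1
      · rw [Fintype.sum_sum_type]
        simp only [AA, measure_univ, sum_const, card_univ, Fintype.card_bool, nsmul_eq_mul,
          mul_one, Nat.cast_ofNat]
        rw [sum_coe_sort D fun d => μ (A d)])
    (false, true) (4 ^ k) hp (by show 4 ^ k < 4 ^ (k + 1); rw [pow_succ]; omega) E0 hE
    (fun f hf y hy => by
      have hb := hconn (fun y v => (fg (k + 1) D a A).RR κ f y none v (a.act y v) none)
        (fun y => by rw [a.act_one]; exact FG.RR.one)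
        (fun y v v' h h' => by rw [← a.act_mul]; exact h.mul h')
        (fun y v h => by rw [a.act_mul, mul_inv_cancel, a.act_one]; exact h.inv')
        (fun y x => by
          have := arc_RR (k + 1) D a A κ f (.inl x) y trivial _ le_rfl
          rwa [show pos (k + 1) D (.inl x) (len (k + 1) D (.inl x)) = none by simp [pos]] at this)
        (fun y d hd hy => by
          have := arc_RR (k + 1) D a A κ f (.inr ⟨d, hd⟩) y hy _ le_rfl
          rw [show pos (k + 1) D (.inr ⟨d, hd⟩) (len (k + 1) D (.inr ⟨d, hd⟩)) = none by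
            simp [pos]] at this
          have e : prd (wf (k + 1) D (.inr ⟨d, hd⟩)) (len (k + 1) D (.inr ⟨d, hd⟩)) = d := by
            simp only [wf, len]
            rw [prd_list _ _ le_rfl, List.take_length, FreeGroup.mk_toWord]
          rwa [e] at this) y hy
      have := arc_RR (k + 1) D a A κ f (.inl false) y trivial (4 ^ k)
        (by show 4 ^ k ≤ 4 ^ (k + 1); rw [pow_succ]; omega)
      exact FG.RR.det hf hb this)
  exact ⟨U, h1, h2, h3, fun x => h4 (x, true)⟩

end Vale.Agent.P189
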