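import Vale.Agent.P189.Pong

/-! The Bernoulli shift: freeness, small partitions and expansion. -/

open MeasureTheory
open scoped ENNReal Pointwise symmDiff

namespace Vale.Agent.P189
open scoped Classical

lemma coin_single (b : Bool) : coin {b} = 1 / 2 := by
  simp [coin, PMF.toMeasure_apply_singleton]

lemma coin_not : coin.map (fun b => !b) = coin := by
  refine Measure.ext_of_singleton fun b => ?_
  rw [Measure.map_apply (measurable_of_countable _) (measurableSet_singleton _)]
  have : (fun b => !b) ⁻¹' {b} = {!b} := by ext c; cases b <;> cases c <;> simp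
  rw [this, coin_single, coin_single]

variable {G : Type}

lemma bm_cyl (K : Finset G) (p : G → Bool) :
    bm G {x | ∀ g ∈ K, x g = p g} = (1 / 2) ^ K.card := by
  have : {x : G → Bool | ∀ g ∈ K, x g = p g} = Set.pi K fun g => {p g} := by
    ext x; simp
  rw [this, bm, Measure.infinitePi_pi _ fun _ _ => measurableSet_singleton _]
  simp [coin_single]

lemma exists_pow_le {η : ℝ≥0∞} (hη : η ≠ 0) : ∃ N : ℕ, (1 / 2 : ℝ≥0∞) ^ N ≤ η := by
  obtain ⟨N, hN⟩ := ENNReal.exists_inv_two_pow_lt hη
  exact ⟨N, by simpa using hN.le⟩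

lemma bern_small [Infinite G] (η : ℝ≥0∞) (hη : η ≠ 0) : ∃ (K : Type) (_ : Countable K)
    (κ : (G → Bool) → K), (∀ j, MeasurableSet {y | κ y = j}) ∧ ∀ j, bm G {y | κ y = j} ≤ η := by
  obtain ⟨N, hN⟩ := exists_pow_le hη
  obtain ⟨K, hK⟩ := Infinite.exists_subset_card_eq G N
  refine ⟨K → Bool, inferInstance, fun x g => x g, fun j => ?_, fun j => ?_⟩
  · have : Measurable fun (x : G → Bool) (g : K) => x g :=
      measurable_pi_lambda _ fun g => measurable_pi_apply _
    exact this (measurableSet_singleton j)
  · refine le_trans (measure_mono fun x hx => ?_)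
      ((bm_cyl K fun g => if h : g ∈ K then j ⟨g, h⟩ else true).le.trans (hK ▸ hN))
    intro g hg
    simp only [dif_pos hg]
    exact congrFun hx ⟨g, hg⟩

lemma bern_free [Group G] (tf : ∀ g : G, g ≠ 1 → Function.Injective fun n : ℕ => g ^ n) :
    (bern G).EssFree := by
  intro g hg
  refine le_antisymm (ENNReal.le_of_forall_pos_le_add fun ε hε _ => ?_) zero_le
  obtain ⟨N, hN⟩ := exists_pow_le (η := (ε : ℝ≥0∞) / 2) (by simp [hε.ne'])
  set K := (Finset.range N).image fun n => g ^ n with hK
  have hc : K.card = N := by rw [hK, Finset.card_image_of_injective _ (tf g hg), Finset.card_range]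
  have sub : {x | (bern G).act x g = x} ⊆ {x | ∀ h ∈ K, x h = (fun _ => true) h} ∪
      {x | ∀ h ∈ K, x h = (fun _ => false) h} := by
    intro x hx
    have h1 : ∀ n : ℕ, x (g ^ n) = x 1 := by
      intro n
      induction n with
      | zero => simp
      | succ n ih => rw [pow_succ', ← ih]; exact congrFun hx (g ^ n)
    have h2 : ∀ h ∈ K, x h = x 1 := by
      intro h hh
      obtain ⟨n, _, rfl⟩ := Finset.mem_image.1 hh
      exact h1 n
    cases e : x 1
    · right; intro h hh; rw [h2 h hh, e]
    · left; intro h hh; rw [h2 h hh, e]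
  refine (measure_mono sub).trans ((measure_union_le _ _).trans ?_)
  rw [bm_cyl, bm_cyl, hc, zero_add, ← ENNReal.add_halves (ε : ℝ≥0∞)]
  exact add_le_add hN hN

def eps (b : Bool) : ℝ := if b then 1 else -1

lemma eps_sq (b : Bool) : eps b * eps b = 1 := by cases b <;> simp [eps]

lemma eps_not (b : Bool) : eps (!b) = -eps b := by cases b <;> simp [eps]

noncomputable def chi (S : Finset G) (x : G → Bool) : ℝ := ∏ g ∈ S, eps (x g)

lemma chi_sq (S : Finset G) (x : G → Bool) : chi S x * chi S x = 1 := by
  unfold chi
  rw [← Finset.prod_mul_distrib]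
  simp [eps_sq]

lemma chi_meas (S : Finset G) : Measurable (chi S) :=
  Finset.measurable_prod _ fun g _ => (measurable_of_countable eps).comp (measurable_pi_apply g)

lemma chi_abs (S : Finset G) (x : G → Bool) : |chi S x| = 1 := by
  have := chi_sq S x
  rw [← abs_mul_abs_self] at this
  nlinarith [abs_nonneg (chi S x)]

lemma chi_int (S T : Finset G) : Integrable (fun x => chi S x * chi T x) (bm G) :=
  Integrable.of_bound ((chi_meas S).mul (chi_meas T)).aestronglyMeasurable 1
    (Filter.Eventually.of_forall fun x => by simp [chi_abs])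

noncomputable def flp (g : G) (x : G → Bool) (h : G) : Bool := if h = g then !x h else x h

lemma flp_mp (g : G) : MeasurePreserving (flp g) (bm G) (bm G) := by
  have := Measure.infinitePi_map_pi (fun _ : G => coin)
    (f := fun h b => if h = g then !b else b) fun _ => measurable_of_countable _
  refine ⟨measurable_pi_lambda _ fun h =>
    (measurable_of_countable fun b => if h = g then !b else b).comp (measurable_pi_apply h), ?_⟩
  refine this.trans ?_
  unfold bm
  congr 1
  funext h
  by_cases e : h = g
  · simp only [e, if_true]; exact coin_not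
  · simp only [e, if_false]; exact Measure.map_id

lemma chi_flp (g : G) (S : Finset G) (x : G → Bool) :
    chi S (flp g x) = if g ∈ S then -chi S x else chi S x := by
  unfold chi
  split_ifs with h
  · rw [← Finset.mul_prod_erase S _ h, ← Finset.mul_prod_erase S _ h,
      Finset.prod_congr rfl (g := fun h => eps (x h))
        fun k hk => by simp [flp, (Finset.mem_erase.1 hk).1]]
    simp [flp, eps_not]
  · exact Finset.prod_congr rfl fun k hk => by
      have : k ≠ g := fun e => h (e ▸ hk)
      simp [flp, this]

lemma chi_orth (S T : Finset G) : ∫ x, chi S x * chi T x ∂bm G = if S = T then 1 else 0 := by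
  split_ifs with h
  · simp [h, chi_sq]
  · obtain ⟨g, hg⟩ : ∃ g, ¬ (g ∈ S ↔ g ∈ T) := by
      by_contra hn
      push Not at hn
      exact h (Finset.ext hn)
    have h1 : ∫ x, chi S (flp g x) * chi T (flp g x) ∂bm G = ∫ x, chi S x * chi T x ∂bm G := by
      have := integral_map (μ := bm G) (flp_mp g).measurable.aemeasurable
        (f := fun x => chi S x * chi T x) ((chi_meas S).mul (chi_meas T)).aestronglyMeasurable
      rw [(flp_mp g).map_eq] at this
      exact this.symm
    have h2 : ∀ x, chi S (flp g x) * chi T (flp g x) = -(chi S x * chi T x) := by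
      intro x
      rw [chi_flp, chi_flp]
      by_cases a : g ∈ S <;> by_cases b : g ∈ T <;> simp_all
    simp only [h2, integral_neg] at h1
    linarith

lemma parseval (c : Finset G → ℝ) (T : Finset (Finset G)) (hT : ∀ S ∉ T, c S = 0) :
    ∫ x, (∑' S, c S * chi S x) ^ 2 ∂bm G = ∑' S, c S ^ 2 := by
  have e : ∀ x, (∑' S, c S * chi S x) ^ 2 =
      ∑ S ∈ T, ∑ S' ∈ T, c S * c S' * (chi S x * chi S' x) := by
    intro x
    rw [tsum_eq_sum (s := T) fun S h => by simp [hT S h], sq, Finset.sum_mul_sum]
    exact Finset.sum_congr rfl fun _ _ => Finset.sum_congr rfl fun _ _ => by ring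
  simp_rw [e]
  rw [tsum_eq_sum (s := T) fun S h => by simp [hT S h],
    integral_finsetSum _ fun S _ => integrable_finsetSum _ fun S' _ => (chi_int S S').const_mul _]
  refine Finset.sum_congr rfl fun S hS => ?_
  rw [integral_finsetSum _ fun S' _ => (chi_int S S').const_mul _]
  simp only [integral_const_mul, chi_orth, mul_ite, mul_one, mul_zero]
  rw [Finset.sum_ite_eq, if_pos hS, sq]

lemma mean_eq (c : Finset G → ℝ) (T : Finset (Finset G)) (hT : ∀ S ∉ T, c S = 0) :
    ∫ x, (∑' S, c S * chi S x) ∂bm G = c ∅ := by
  have e : ∀ x, (∑' S, c S * chi S x) = ∑ S ∈ T, c S * (chi ∅ x * chi S x) := by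
    intro x
    rw [tsum_eq_sum (s := T) fun S h => by simp [hT S h]]
    simp [chi]
  simp_rw [e]
  rw [integral_finsetSum _ fun S _ => (chi_int ∅ S).const_mul _]
  simp only [integral_const_mul, chi_orth, mul_ite, mul_one, mul_zero]
  rw [Finset.sum_ite_eq]
  split_ifs with h
  · rfl
  · exact (hT _ h).symm

lemma expand (K : Finset G) : ∀ f : (G → Bool) → ℝ, DependsOn f K →
    ∃ c : Finset G → ℝ, ∀ x, f x = ∑ S ∈ K.powerset, c S * chi S x := by
  induction K using Finset.induction_on with
  | empty =>
    intro f hf
    exact ⟨fun _ => f fun _ => true, fun x => by simpa [chi] using hf (by simp)⟩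
  | insert g K hg ih =>
    intro f hf
    have dep : ∀ b, DependsOn (fun x => f (Function.update x g b)) K := by
      intro b x y hxy
      refine hf fun i hi => ?_
      by_cases e : i = g
      · simp [e]
      · simp only [Function.update_of_ne e]
        exact hxy i (by simpa [e] using hi)
    obtain ⟨c0, h0⟩ := ih _ (dep false)
    obtain ⟨c1, h1⟩ := ih _ (dep true)
    refine ⟨fun S => if g ∈ S then (c1 (S.erase g) - c0 (S.erase g)) / 2 else (c0 S + c1 S) / 2,
      fun x => ?_⟩
    rw [Finset.sum_powerset_insert hg, ← Finset.sum_add_distrib]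
    have e : ∀ S ∈ K.powerset, (if g ∈ S then (c1 (S.erase g) - c0 (S.erase g)) / 2
        else (c0 S + c1 S) / 2) * chi S x + (if g ∈ insert g S then
          (c1 ((insert g S).erase g) - c0 ((insert g S).erase g)) / 2
          else (c0 (insert g S) + c1 (insert g S)) / 2) * chi (insert g S) x =
        (if x g then c1 S else c0 S) * chi S x := by
      intro S hS
      have hgS : g ∉ S := fun h => hg (Finset.mem_powerset.1 hS h)
      rw [if_neg hgS, if_pos (Finset.mem_insert_self _ _), Finset.erase_insert hgS]
      unfold chi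
      rw [Finset.prod_insert hgS]
      cases x g <;> simp [eps] <;> ring
    rw [Finset.sum_congr rfl e]
    have e2 : f x = f (Function.update x g (x g)) := by simp
    rw [e2]
    cases x g
    · simpa using h0 x
    · simpa using h1 x

lemma gap [Group G] (j : F2 →* G) (hj : Function.Injective j) (K : Finset G)
    (f : (G → Bool) → ℝ) (hf : DependsOn f K) (h0 : ∫ x, f x ∂bm G = 0) :
    ∫ x, f x ^ 2 ∂bm G ≤
      6 * ∑ a : Bool, ∫ x, (f x - f ((bern G).act x (j (FreeGroup.of a)))) ^ 2 ∂bm G := by
  obtain ⟨c', hc'⟩ := expand K f hf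
  set c : Finset G → ℝ := fun S => if S ∈ K.powerset then c' S else 0 with hc
  have hT : ∀ S ∉ K.powerset, c S = 0 := fun S h => by simp only [hc, if_neg h]
  have hf' : ∀ x, f x = ∑' S, c S * chi S x := by
    intro x
    rw [hc' x, tsum_eq_sum (s := K.powerset) fun S h => by simp [hT S h]]
    exact Finset.sum_congr rfl fun S h => by simp only [hc, if_pos h]
  let _ : MulAction F2 (Finset G) := MulAction.compHom _ j
  have sm : ∀ (v : F2) (S : Finset G), v • S = j v • S := fun _ _ => rfl
  have c0 : c ∅ = 0 := by rw [← mean_eq c _ hT, ← h0]; simp_rw [hf']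
  have key := pingpong (Ω := Finset G) Finset.Nonempty (fun v S hS h => ?_) c _ hT
    (fun S hS => by rw [Finset.not_nonempty_iff_eq_empty.1 hS, c0])
  · simp_rw [hf']
    rw [parseval c _ hT]
    refine key.trans (le_of_eq ?_)
    congr 1
    refine Finset.sum_congr rfl fun a _ => ?_
    set v : F2 := FreeGroup.of a
    have hT2 : ∀ S ∉ K.powerset.image fun S => v • S, c (v⁻¹ • S) = 0 := fun S h =>
      hT _ fun h' => h (Finset.mem_image.2 ⟨_, h', smul_inv_smul _ _⟩)
    rw [← parseval (fun S => c S - c (v⁻¹ • S)) (K.powerset ∪ K.powerset.image fun S => v • S)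
      fun S h => by
        rw [Finset.mem_union, not_or] at h
        rw [hT S h.1, hT2 S h.2, sub_zero]]
    refine integral_congr_ae (Filter.Eventually.of_forall fun x => ?_)
    have e1 : ∑' S, c S * chi S ((bern G).act x (j v)) = ∑' S, c (v⁻¹ • S) * chi S x := by
      rw [← (MulAction.toPerm v : Finset G ≃ Finset G).tsum_eq fun S => c (v⁻¹ • S) * chi S x]
      refine tsum_congr fun S => ?_
      simp only [MulAction.toPerm_apply, inv_smul_smul]
      congr 1
      rw [sm, Finset.smul_finset_def]
      unfold chi
      rw [Finset.prod_image fun _ _ _ _ h => MulAction.injective _ h]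
      rfl
    simp only [e1, sub_mul]
    rw [Summable.tsum_sub
      (summable_of_ne_finset_zero (s := K.powerset) fun S h => by simp [hT S h])
      (summable_of_ne_finset_zero fun S h => by rw [hT2 S h, zero_mul])]
  · by_contra hv
    obtain ⟨g, hg⟩ := hS
    have h1 : ∀ n : ℕ, j v ^ n * g ∈ S := by
      intro n
      induction n with
      | zero => simpa using hg
      | succ n ih =>
        rw [pow_succ', mul_assoc, ← h, sm]
        exact Finset.smul_mem_smul_finset ih
    refine not_injective_infinite_finite (fun n : ℕ => (⟨_, h1 n⟩ : S)) fun m n e => ?_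
    have e1 : j v ^ m = j v ^ n := mul_right_cancel (congrArg Subtype.val e)
    rw [← map_pow, ← map_pow] at e1
    exact (injective_pow_iff_not_isOfFinOrder.2 (not_isOfFinOrder_of_isMulTorsionFree hv)) (hj e1)

lemma expand_cyl [Group G] (j : F2 →* G) (hj : Function.Injective j) (U : Set (G → Bool))
    (hU : U ∈ measurableCylinders fun _ : G => Bool) :
    (bm G).real U * (1 - (bm G).real U) ≤
      12 * ∑ a : Bool, (bm G).real (U \ (fun y => (bern G).act y (j (FreeGroup.of a))) ⁻¹' U) := by
  have mU : MeasurableSet U := .of_mem_measurableCylinders hU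
  obtain ⟨K, B, _, hB⟩ := (mem_measurableCylinders U).1 hU
  set m := (bm G).real U with hm
  have iU : Integrable (U.indicator fun _ => (1 : ℝ)) (bm G) := (integrable_const 1).indicator mU
  have eU : ∫ x, U.indicator (fun _ => (1 : ℝ)) x ∂bm G = m := by simp [integral_indicator mU, hm]
  have := gap j hj K (fun x => U.indicator (fun _ => (1 : ℝ)) x - m) (fun x y hxy => by
      have : x ∈ U ↔ y ∈ U := by
        rw [hB, mem_cylinder, mem_cylinder]
        have : K.restrict x = K.restrict y := funext fun i => hxy i i.2
        rw [this]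
      simp only [Set.indicator_apply, this])
    (by rw [integral_sub iU (integrable_const _), eU]; simp)
  have e1 : ∫ x, (U.indicator (fun _ => (1 : ℝ)) x - m) ^ 2 ∂bm G = m * (1 - m) := by
    have : ∀ x, (U.indicator (fun _ => (1 : ℝ)) x - m) ^ 2 =
        (1 - 2 * m) * U.indicator (fun _ => (1 : ℝ)) x + m ^ 2 := by
      intro x
      by_cases h : x ∈ U <;> simp [h] <;> ring
    simp_rw [this]
    rw [integral_add (iU.const_mul _) (integrable_const _), integral_const_mul, eU]
    simp; ring
  rw [e1] at this
  refine this.trans (le_of_eq ?_)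
  rw [show (12 : ℝ) = 6 * 2 by norm_num, mul_assoc, Finset.mul_sum (a := 2)]
  congr 1
  refine Finset.sum_congr rfl fun a _ => ?_
  set V := (fun y => (bern G).act y (j (FreeGroup.of a))) ⁻¹' U with hV
  have mV : MeasurableSet V := ((bern G).mp _).measurable mU
  have e2 : ∀ x, (U.indicator (fun _ => (1 : ℝ)) x - m - (U.indicator (fun _ => (1 : ℝ))
      ((bern G).act x (j (FreeGroup.of a))) - m)) ^ 2 =
      (U \ V).indicator (fun _ => (1 : ℝ)) x + (V \ U).indicator (fun _ => (1 : ℝ)) x := by
    intro x
    rw [sub_sub_sub_cancel_right]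
    by_cases h : x ∈ U <;> by_cases h' : (bern G).act x (j (FreeGroup.of a)) ∈ U <;>
      simp [h, h', hV]
  simp_rw [e2]
  rw [integral_add ((integrable_const 1).indicator (mU.diff mV))
    ((integrable_const 1).indicator (mV.diff mU)), integral_indicator (mU.diff mV),
    integral_indicator (mV.diff mU)]
  have e3 : bm G (V \ U) = bm G (U \ V) := measure_sdiff_symm mV.nullMeasurableSet
    mU.nullMeasurableSet (((bern G).mp _).measure_preimage mU.nullMeasurableSet) (measure_ne_top _ _)
  simp only [integral_const, MeasurableSet.univ, measureReal_restrict_apply, Set.univ_inter,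
    smul_eq_mul, mul_one]
  simp only [Measure.real, e3]
  ring

theorem bern_expand [Group G] (j : F2 →* G) (hj : Function.Injective j) (U : Set (G → Bool))
    (hU : MeasurableSet U) :
    (bm G).real U * (1 - (bm G).real U) ≤ 49 / 1000 +
      12 * ∑ a : Bool, (bm G).real (U \ (fun y => (bern G).act y (j (FreeGroup.of a))) ⁻¹' U) := by
  obtain ⟨t, ht, h⟩ := exists_measure_symmDiff_lt_of_generateFrom_isSetRing (μ := bm G)
    isSetRing_measurableCylinders ⟨{Set.univ}, Set.countable_singleton _,
      Set.singleton_subset_iff.2 (univ_mem_measurableCylinders _), by simp⟩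
    generateFrom_measurableCylinders.symm hU (ε := ENNReal.ofReal (1 / 1000)) (by simp)
  have mt : MeasurableSet t := .of_mem_measurableCylinders ht
  have h1 : (bm G).real (t ∆ U) ≤ 1 / 1000 := ENNReal.toReal_le_of_le_ofReal (by norm_num) h.le
  have h2 := abs_le.1 ((abs_measureReal_sub_le_measureReal_symmDiff (μ := bm G)
    mt.nullMeasurableSet hU.nullMeasurableSet).trans h1)
  have h3 := expand_cyl j hj t ht
  have h4 : ∀ a : Bool, (bm G).real (t \ (fun y => (bern G).act y (j (FreeGroup.of a))) ⁻¹' t) ≤
      (bm G).real (U \ (fun y => (bern G).act y (j (FreeGroup.of a))) ⁻¹' U) + 2 / 1000 := by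
    intro a
    have sub : t \ (fun y => (bern G).act y (j (FreeGroup.of a))) ⁻¹' t ⊆
        (U \ (fun y => (bern G).act y (j (FreeGroup.of a))) ⁻¹' U) ∪ (t ∆ U ∪
          (fun y => (bern G).act y (j (FreeGroup.of a))) ⁻¹' (t ∆ U)) := by
      intro y hy
      simp only [Set.mem_union, Set.mem_sdiff, Set.mem_preimage, Set.mem_symmDiff] at hy ⊢
      tauto
    have e := ((bern G).mp (j (FreeGroup.of a))).measureReal_preimage
      (mt.symmDiff hU).nullMeasurableSet
    refine (measureReal_mono sub).trans ((measureReal_union_le _ _).trans ?_)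
    have := measureReal_union_le (μ := bm G) (t ∆ U)
      ((fun y => (bern G).act y (j (FreeGroup.of a))) ⁻¹' (t ∆ U))
    linarith
  rw [Fintype.sum_bool] at h3 ⊢
  have u0 := measureReal_nonneg (μ := bm G) (s := U)
  have u1 := measureReal_le_one (μ := bm G) (s := U)
  have t0 := measureReal_nonneg (μ := bm G) (s := t)
  have t1 := measureReal_le_one (μ := bm G) (s := t)
  have : (bm G).real U * (1 - (bm G).real U) ≤ (bm G).real t * (1 - (bm G).real t) + 1 / 1000 := by
    nlinarith [h2.1, h2.2]
  linarith [h4 true, h4 false]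

end Vale.Agent.P189
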