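import Vale.Agent.P189.Meas

/-! The measured Euler characteristic bound and the almost invariant set. -/

open MeasureTheory
open scoped ENNReal

namespace Vale.Agent.P189
open Finset
open scoped Classical

namespace FS
variable {Y E J : Type} [MeasurableSpace Y] [Fintype E] [Countable J] {S : FS Y E J}
  {μ : Measure Y} [IsProbabilityMeasure μ] (M : S.Ms)
  (hmv : ∀ l, MeasurePreserving (fun y => S.mv y l) μ μ)

include hmv in
omit [Fintype E] [Countable J] [IsProbabilityMeasure μ] in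
lemma mp_pt (s : Lt) (i : ℕ) : MeasurePreserving (fun y => S.pt y s i) μ μ := by
  induction i with
  | zero => simp only [S.pt0]; exact MeasurePreserving.id μ
  | succ i ih => simp only [S.ptS]; exact (hmv _).comp ih

def bk (S : FS Y E J) (s : Lt) : ℕ → Y → Y
  | 0, z => z
  | l + 1, z => bk S s l (S.mv z (inv (ws (4 ^ S.k) s l)))

omit [Fintype E] [Countable J] [MeasurableSpace Y] in
lemma pt_bk (s : Lt) (l : ℕ) (z : Y) : S.pt (S.bk s l z) s l = z := by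
  induction l generalizing z with
  | zero => simp [bk, S.pt0]
  | succ l ih => rw [S.ptS, bk, ih, S.mv_inv']

include hmv in
omit [Fintype E] [Countable J] [IsProbabilityMeasure μ] in
lemma mp_bk (s : Lt) (l : ℕ) : MeasurePreserving (S.bk s l) μ μ := by
  induction l with
  | zero => exact MeasurePreserving.id μ
  | succ l ih => exact ih.comp (hmv _)

include M hmv

lemma lint_nxt {σ : Y → J → J} (hσ : ∀ j, Cm fun y => σ y j) (h h' : E × Bool) {Z : Y → Prop}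
    (hZ : Cm Z) :
    ∫⁻ y, (S.XX (S.nxt σ h h' Z) y : ℝ≥0∞) ∂μ ≤ ∫⁻ y, (S.XX σ y : ℝ≥0∞) ∂μ := by
  have hd := (cm_dl M hσ h h' hZ).set
  have hd' := ((cm_dl M hσ h h' hZ).pre (M.mv (inv (S.lab h)))).set
  have h1 : ∫⁻ y, ((S.XX (S.nxt σ h h' Z) y : ℝ≥0∞) +
      ((if S.dl σ h h' Z y then 1 else 0 : ℕ) : ℝ≥0∞)) ∂μ ≤ ∫⁻ y, ((S.XX σ y : ℝ≥0∞) +
      ((if S.dl σ h h' Z (S.mv y (inv (S.lab h))) then 1 else 0 : ℕ) : ℝ≥0∞)) ∂μ :=
    lintegral_mono fun y => by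
      simpa only [Nat.cast_add] using (Nat.cast_le (α := ℝ≥0∞)).2 (S.XX_nxt σ h h' Z y)
  rw [lintegral_add_left (cm_XX M (cm_nxt M hσ h h' hZ)).ennreal,
    lintegral_add_left (cm_XX M hσ).ennreal, lint_ite μ _ hd, lint_ite μ _ hd'] at h1
  have e : μ {y | S.dl σ h h' Z (S.mv y (inv (S.lab h)))} = μ {y | S.dl σ h h' Z y} :=
    (hmv (inv (S.lab h))).measure_preimage hd.nullMeasurableSet
  rw [e] at h1
  exact (ENNReal.add_le_add_iff_right (measure_ne_top _ _)).1 h1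

lemma lint_init {ε : ℝ≥0∞} (h0 : ∑ e, μ {y | S.P y e ∧ S.s e = S.b} ≤ 2 + ε) :
    ∫⁻ y, (S.XX (fun _ => id) y : ℝ≥0∞) ∂μ ≤ 2 * ε := by
  have m1 : ∀ e, MeasurableSet {y | S.P (S.mv y (inv (S.w e))) e} := fun e => M.mv _ (M.P e)
  have m2 : ∀ e, MeasurableSet {y | S.P y e ∧ S.s e = S.b} := fun e =>
    (M.P e).inter (MeasurableSet.const _)
  have h1 : ∫⁻ y, ((S.XX (fun _ => id) y : ℝ≥0∞) + (4 + ((univ.filter (S.P y)).card : ℝ≥0∞))) ∂μ ≤
      ∫⁻ y, (((univ.filter fun e => S.P (S.mv y (inv (S.w e))) e).card : ℝ≥0∞) +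
        2 * ((univ.filter fun e => S.P y e ∧ S.s e = S.b).card : ℝ≥0∞)) ∂μ :=
    lintegral_mono fun y => by
      have := S.XX_init y
      rw [add_assoc] at this
      simpa only [Nat.cast_add, Nat.cast_mul, Nat.cast_ofNat] using
        (Nat.cast_le (α := ℝ≥0∞)).2 this
  rw [lintegral_add_left (cm_XX (σ := fun _ => id) M fun j => Cm.const j).ennreal,
    lintegral_add_left measurable_const, lintegral_add_left (cm_card _ _ m1),
    lintegral_const_mul _ (cm_card _ _ m2), lint_card μ _ _ M.P, lint_card μ _ _ m1,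
    lint_card μ _ _ m2] at h1
  have e : ∑ e, μ {y | S.P (S.mv y (inv (S.w e))) e} = ∑ e, μ {y | S.P y e} :=
    sum_congr rfl fun e _ => (hmv _).measure_preimage (M.P e).nullMeasurableSet
  rw [e] at h1
  simp only [lintegral_const, measure_univ, mul_one] at h1
  have fin : (4 : ℝ≥0∞) + ∑ e, μ {y | S.P y e} ≠ ∞ :=
    ENNReal.add_ne_top.2 ⟨by simp, ENNReal.sum_ne_top.2 fun _ _ => measure_ne_top _ _⟩
  refine (ENNReal.add_le_add_iff_right fin).1 (h1.trans ?_)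
  calc _ ≤ ∑ e, μ {y | S.P y e} + 2 * (2 + ε) := by gcongr
    _ = _ := by ring

lemma bad_le {σ : Y → J → J} (hσ : ∀ j, Cm fun y => σ y j) :
    μ {y | (S.sys σ).Bad y} ≤ 6 * ∫⁻ y, (S.XX σ y : ℝ≥0∞) ∂μ := by
  set I : Finset (Lt × ℕ) := univ ×ˢ range (4 ^ S.k + 1) with hI
  have sub : {y | (S.sys σ).Bad y} ⊆ {y | (1 : ℝ≥0∞) ≤ S.XX σ y} ∪
      ⋃ p ∈ I, {y | (S.sys σ).ch y p.1 p.2} := by
    rintro y (h | ⟨s, l, h⟩)
    · left
      have := (S.exc σ y).2.2 h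
      show (1 : ℝ≥0∞) ≤ S.XX σ y
      exact_mod_cast this
    · right
      simp only [Set.mem_iUnion]
      exact ⟨(s, l), mem_product.2 ⟨mem_univ _, mem_range.2 (Nat.lt_succ_of_le h.2.1)⟩, h⟩
  have h1 : μ {y | (1 : ℝ≥0∞) ≤ S.XX σ y} ≤ ∫⁻ y, (S.XX σ y : ℝ≥0∞) ∂μ := by
    simpa using mul_meas_ge_le_lintegral (μ := μ) (cm_XX M hσ).ennreal 1
  have h2 : ∑ p ∈ I, μ {y | (S.sys σ).ch y p.1 p.2} ≤ 5 * ∫⁻ y, (S.XX σ y : ℝ≥0∞) ∂μ := by
    have m : ∀ p : Lt × ℕ, MeasurableSet {z | (S.sys σ).ch (S.bk p.1 p.2 z) p.1 p.2} :=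
      fun p => (mp_bk hmv p.1 p.2).measurable (meas_ch M hσ p.1 p.2)
    have e : ∑ p ∈ I, μ {y | (S.sys σ).ch y p.1 p.2} =
        ∑ p ∈ I, μ {z | (S.sys σ).ch (S.bk p.1 p.2 z) p.1 p.2} :=
      sum_congr rfl fun p _ =>
        ((mp_bk hmv p.1 p.2).measure_preimage (meas_ch M hσ p.1 p.2).nullMeasurableSet).symm
    rw [e, ← lint_card μ I (fun z p => (S.sys σ).ch (S.bk p.1 p.2 z) p.1 p.2) m,
      ← lintegral_const_mul _ (cm_XX M hσ).ennreal]
    refine lintegral_mono fun z => ?_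
    have := ((S.sys σ).W2 (fun s l => S.bk s l z) z (fun s l => pt_bk s l z)).trans
      (S.exc σ z).2.1
    have h6 := (Nat.cast_le (α := ℝ≥0∞)).2 this
    rw [Nat.cast_mul, Nat.cast_ofNat] at h6
    exact h6
  calc _ ≤ _ := measure_mono sub
    _ ≤ _ := measure_union_le _ _
    _ ≤ ∫⁻ y, (S.XX σ y : ℝ≥0∞) ∂μ + 5 * ∫⁻ y, (S.XX σ y : ℝ≥0∞) ∂μ :=
      add_le_add h1 ((measure_biUnion_finset_le _ _).trans h2)
    _ = _ := by ring

omit M [Countable J] [IsProbabilityMeasure μ] in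
lemma change (σ : Y → J → J) (h h' : E × Bool) (Z : Y → Prop) :
    μ {y | (S.sys σ).U y} ≤ μ {y | (S.sys (S.nxt σ h h' Z)).U y} +
      (20 * 4 ^ S.k : ℕ) * μ {y | Z y} := by
  let mo : Y → Option Lt → Y := fun y o => o.elim y (S.mv y)
  have hmo : ∀ o, MeasurePreserving (fun y => mo y o) μ μ := fun o => by
    cases o
    · exact MeasurePreserving.id μ
    · exact hmv _
  set I : Finset (Lt × ℕ × Option Lt) := univ ×ˢ range (4 ^ S.k) ×ˢ univ with hI
  have sub : {y | (S.sys σ).U y} ⊆ {y | (S.sys (S.nxt σ h h' Z)).U y} ∪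
      ⋃ p ∈ I, (fun y => S.mv (mo (S.pt y p.1 p.2.1) p.2.2) (inv (S.lab h))) ⁻¹' {y | Z y} := by
    intro y hy
    by_contra hn
    simp only [Set.mem_union, Set.mem_iUnion, not_or, not_exists] at hn
    have key : ∀ z, ¬ Z (S.mv z (inv (S.lab h))) → S.nxt σ h h' Z z = σ z := by
      intro z hz
      funext j
      unfold FG.nxt FG.mg
      rw [if_neg fun hc => hz hc.1.1]
    refine hn.1 (S.U_congr (fun s i hi => ⟨key _ ?_, fun l => key _ ?_⟩) hy)
    · exact hn.2 (s, i, none) (by simp [hI, hi])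
    · exact hn.2 (s, i, some l) (by simp [hI, hi])
  refine (measure_mono sub).trans ((measure_union_le _ _).trans ?_)
  gcongr
  refine (measure_biUnion_finset_le _ _).trans ?_
  refine (sum_le_card_nsmul _ _ (μ {y | Z y}) fun p _ =>
    (((hmv _).comp ((hmo p.2.2).comp (mp_pt hmv p.1 p.2.1))).measure_preimage_le _)).trans ?_
  have : I.card = 20 * 4 ^ S.k := by
    simp [hI]; ring
  rw [this, nsmul_eq_mul]

theorem core {K : Type} [Countable K] (κ : Y → K) (hκ : ∀ j, MeasurableSet {y | κ y = j})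
    (hη : ∀ j, (20 * 4 ^ S.k : ℕ) * μ {y | κ y = j} ≤ 1 / 10) {ε : ℝ≥0∞}
    (h0 : ∑ e, μ {y | S.P y e ∧ S.s e = S.b} ≤ 2 + ε) (s0 : Lt) (l0 : ℕ) (hl0 : 0 < l0)
    (hl1 : l0 < 4 ^ S.k) (A : Set Y) (hA : 1 / 2 < μ A)
    (hsim : ∀ f : ℕ → (E × Bool) × (E × Bool) × K, (∀ m r0, ∃ r, r0 ≤ r ∧ f r = m) →
      ∀ y ∈ A, S.sim κ f (S.pt y s0 l0) S.b (S.vx s0 l0)) :
    ∃ U : Set Y, MeasurableSet U ∧ 4 / 10 ≤ μ.real U ∧ μ.real U ≤ 1 / 2 ∧
      ∀ s, μ (U \ (fun y => S.pt y s (4 ^ S.k)) ⁻¹' U) ≤ 12 * ε := by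
  have hY : Nonempty Y := nonempty_of_isProbabilityMeasure μ
  have : Nonempty ((E × Bool) × (E × Bool) × K) :=
    ⟨(S.ar s0 0, S.ar s0 0, κ hY.some)⟩
  obtain ⟨f, hf⟩ := exists_fair ((E × Bool) × (E × Bool) × K)
  have cm := cm_sg M hκ f
  set U : ℕ → Set Y := fun r => {y | (S.sys (S.sg κ f r)).U y} with hU
  have mU : ∀ r, MeasurableSet (U r) := fun r => meas_U M (cm r)
  have hX : ∀ r, ∫⁻ y, (S.XX (S.sg κ f r) y : ℝ≥0∞) ∂μ ≤ 2 * ε := by
    intro r
    induction r with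
    | zero => exact lint_init M hmv h0
    | succ r ih => exact (lint_nxt M hmv (cm r) _ _ (Cm.of_set (hκ _))).trans ih
  have hstep : ∀ r, μ.real (U r) ≤ μ.real (U (r + 1)) + 1 / 10 := by
    intro r
    have := (change hmv (S.sg κ f r) (f r).1 (f r).2.1 fun y => κ y = (f r).2.2).trans
      (add_le_add le_rfl (hη _))
    have h2 := ENNReal.toReal_mono (ENNReal.add_ne_top.2 ⟨measure_ne_top _ _, by simp⟩) this
    rw [ENNReal.toReal_add (measure_ne_top _ _) (by simp)] at h2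
    have h3 : (1 / 10 : ℝ≥0∞).toReal = 1 / 10 := by simp
    rw [h3] at h2
    exact h2
  have hend : ∃ r, μ.real (U r) ≤ 1 / 2 := by
    set B : ℕ → Set Y := fun r =>
      {y | S.sg κ f r (S.pt y s0 l0) S.b = S.sg κ f r (S.pt y s0 l0) (S.vx s0 l0)} with hB
    have mono : Monotone B := fun r r' hr y hy => S.sg_mono κ f hr hy
    have sub : A ⊆ ⋃ r, B r := fun y hy => Set.mem_iUnion.2 (hsim f hf y hy)
    have := hA.trans_le (measure_mono sub)
    rw [mono.measure_iUnion, lt_iSup_iff] at this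
    obtain ⟨r, hr⟩ := this
    refine ⟨r, ?_⟩
    have sub2 : B r ⊆ (U r)ᶜ := fun y hy hy' => (hy' s0 l0 hl0 hl1).1 hy.symm
    have h3 := hr.trans_le (measure_mono sub2)
    have h4 := (ENNReal.toReal_lt_toReal (by simp) (measure_ne_top _ _)).2 h3
    have h5 := probReal_compl_eq_one_sub (μ := μ) (mU r)
    simp only [Measure.real] at h5 ⊢
    rw [h5] at h4
    simp only [one_div, ENNReal.toReal_inv, ENNReal.toReal_ofNat] at h4
    linarith
  have hU0 : μ.real (U 0) = 1 := by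
    have : U 0 = Set.univ := Set.eq_univ_of_forall fun y => S.U_init y
    simp [this]
  have hr := Nat.find_spec hend
  obtain ⟨r, e⟩ : ∃ r, Nat.find hend = r + 1 := by
    refine Nat.exists_eq_succ_of_ne_zero fun h => ?_
    rw [h, hU0] at hr; norm_num at hr
  have hr' := Nat.find_min hend (m := r) (by omega)
  rw [e] at hr
  refine ⟨U (r + 1), mU _, by linarith [hstep r], hr, fun s => ?_⟩
  have sub : U (r + 1) \ (fun y => S.pt y s (4 ^ S.k)) ⁻¹' U (r + 1) ⊆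
      (fun y => S.pt y s (4 ^ S.k)) ⁻¹' {y | (S.sys (S.sg κ f (r + 1))).Bad y} := by
    intro y hy
    by_contra hb
    exact hy.2 ((S.sys _).W3 y hy.1 s hb)
  calc _ ≤ _ := measure_mono sub
    _ ≤ _ := (mp_pt hmv s _).measure_preimage_le _
    _ ≤ _ := bad_le M hmv (cm _)
    _ ≤ 6 * (2 * ε) := by gcongr; exact hX _
    _ = _ := by ring

end FS

end Vale.Agent.P189
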