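import Mathlib

/-! Cost of probability measure preserving actions of countable groups. -/

open MeasureTheory
open scoped ENNReal

namespace Vale.Agent.P189

/-- A right action `(x g) h = x (g h)` of a group on a measure space by measure preserving
measurable maps (each map is a measurable bijection with measurable inverse given by `g⁻¹`). -/
structure PMPAction (Γ : Type) [Group Γ] (X : Type) [MeasurableSpace X] (μ : Measure X) where
  act : X → Γ → X
  act_one : ∀ x, act x 1 = x
  act_mul : ∀ x g h, act (act x g) h = act x (g * h)
  mp : ∀ g, MeasurePreserving (fun x => act x g) μ μ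

variable {Γ : Type} [Group Γ] {X : Type} [MeasurableSpace X] {μ : Measure X}

/-- Essential freeness: each `g ≠ 1` fixes only a null set of points. -/
def PMPAction.EssFree (a : PMPAction Γ X μ) : Prop :=
  ∀ g : Γ, g ≠ 1 → μ {x | a.act x g = x} = 0

/-- A graphing of the orbit equivalence relation: a countable family of measure preserving
Borel bijections `φ i : A i → B i` between Borel sets, moving points inside their orbits. -/
structure Graphing (a : PMPAction Γ X μ) where
  ι : Type
  countable : Countable ι
  A : ι → Set X
  B : ι → Set X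
  φ : ι → X → X
  measA : ∀ i, MeasurableSet (A i)
  measB : ∀ i, MeasurableSet (B i)
  bij : ∀ i, Set.BijOn (φ i) (A i) (B i)
  mp : ∀ i, MeasurePreserving (φ i) (μ.restrict (A i)) (μ.restrict (B i))
  orbit : ∀ i, ∀ x ∈ A i, ∃ g, φ i x = a.act x g

/-- One move along some `φ i` or its inverse. -/
def Graphing.Step {a : PMPAction Γ X μ} (Φ : Graphing a) (u v : X) : Prop :=
  ∃ i, (u ∈ Φ.A i ∧ Φ.φ i u = v) ∨ (v ∈ Φ.A i ∧ Φ.φ i v = u)

/-- The graphing generates the orbit relation: for almost every `x`, each point of the orbit of
`x` is reached from `x` by a finite chain of moves. -/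
def Graphing.Generates {a : PMPAction Γ X μ} (Φ : Graphing a) : Prop :=
  ∀ᵐ x ∂μ, ∀ g : Γ, Relation.ReflTransGen Φ.Step x (a.act x g)

/-- The cost of a graphing: the sum of the measures of the domains. -/
noncomputable def Graphing.cost {a : PMPAction Γ X μ} (Φ : Graphing a) : ℝ≥0∞ :=
  ∑' i, μ (Φ.A i)

/-- The cost of an action: the infimum of the costs of generating graphings. -/
noncomputable def PMPAction.cost (a : PMPAction Γ X μ) : ℝ≥0∞ :=
  ⨅ (Φ : Graphing a) (_ : Φ.Generates), Φ.cost

/-- Fixed price: all essentially free p.m.p. actions on standard probability spaces have the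
same cost. -/
def FixedPrice (Γ : Type) [Group Γ] : Prop :=
  ∀ (X Y : Type) [MeasurableSpace X] [StandardBorelSpace X] [MeasurableSpace Y]
    [StandardBorelSpace Y] (μ : Measure X) (ν : Measure Y) [IsProbabilityMeasure μ]
    [IsProbabilityMeasure ν] (a : PMPAction Γ X μ) (b : PMPAction Γ Y ν),
    a.EssFree → b.EssFree → a.cost = b.cost

end Vale.Agent.P189
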