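import Vale.Agent.P189.Grp

/-! A free action of finite cost: multiply any free action by a circle rotation. -/

open MeasureTheory
open scoped ENNReal

namespace Vale.Agent.P189

instance : IsProbabilityMeasure (volume : Measure UnitAddCircle) := ⟨by simp⟩

section
variable {Γ : Type} [Group Γ] {X : Type} [MeasurableSpace X] {μ : Measure X}

lemma PMPAction.inv_cancel (a : PMPAction Γ X μ) (x : X) (g : Γ) :
    a.act (a.act x g) g⁻¹ = x := by rw [a.act_mul, mul_inv_cancel, a.act_one]

lemma PMPAction.inv_cancel' (a : PMPAction Γ X μ) (x : X) (g : Γ) :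
    a.act (a.act x g⁻¹) g = x := by rw [a.act_mul, inv_mul_cancel, a.act_one]

/-- the graphing made of restrictions of group elements -/
def restrG (a : PMPAction Γ X μ) (ι : Type) [Countable ι] (g : ι → Γ) (A : ι → Set X)
    (hA : ∀ i, MeasurableSet (A i)) : Graphing a where
  ι := ι
  countable := inferInstance
  A := A
  B i := (fun x => a.act x (g i)⁻¹) ⁻¹' A i
  φ i x := a.act x (g i)
  measA := hA
  measB i := (a.mp _).measurable (hA i)
  bij i := ⟨fun x hx => by simpa [a.inv_cancel] using hx,
    fun x _ y _ h => by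
      rw [← a.inv_cancel x (g i), ← a.inv_cancel y (g i)]
      exact congrArg (fun z => a.act z (g i)⁻¹) h,
    fun y hy => ⟨_, hy, a.inv_cancel' _ _⟩⟩
  mp i := by
    have := (a.mp (g i)).restrict_preimage ((a.mp (g i)⁻¹).measurable (hA i))
    have e : (fun x => a.act x (g i)) ⁻¹' ((fun x => a.act x (g i)⁻¹) ⁻¹' A i) = A i := by
      ext x; simp [a.inv_cancel]
    rwa [e] at this
  orbit i x _ := ⟨g i, rfl⟩

lemma Graphing.rsymm {a : PMPAction Γ X μ} (Φ : Graphing a) {u v : X}
    (h : Relation.ReflTransGen Φ.Step u v) : Relation.ReflTransGen Φ.Step v u := by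
  induction h with
  | refl => exact .refl
  | tail _ st ih =>
    obtain ⟨i, h⟩ := st
    exact .head ⟨i, h.symm⟩ ih

end

theorem fin_cost {Γ : Type} [Group Γ] (T : Tower Γ) {X : Type} [MeasurableSpace X]
    {μ : Measure X} [IsProbabilityMeasure μ] (a : PMPAction Γ X μ) (ha : a.EssFree) :
    ∃ b : PMPAction Γ (X × UnitAddCircle) (μ.prod volume), b.EssFree ∧ b.cost < ⊤ := by
  obtain ⟨ψ, h1, h2, h3⟩ := T.exists_psi
  let b : PMPAction Γ (X × UnitAddCircle) (μ.prod volume) :=
    { act := fun y g => (a.act y.1 g, y.2 + (ψ g : ℝ))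
      act_one := fun y => by simp [a.act_one, h2]
      act_mul := fun y g h => by simp [a.act_mul, h1, add_assoc]
      mp := fun g => (a.mp g).prod (measurePreserving_add_right volume _) }
  have hb2 : ∀ y g, (b.act y g).2 = y.2 + (ψ g : ℝ) := fun _ _ => rfl
  refine ⟨b, fun g hg => ?_, ?_⟩
  · refine measure_mono_null (t := {x | a.act x g = x} ×ˢ Set.univ)
      (fun y hy => ⟨congrArg Prod.fst hy, trivial⟩) ?_
    rw [Measure.prod_prod, ha g hg, zero_mul]
  let Φ := restrG b (ℕ × Bool) (fun p => T.ι p.1 (FreeGroup.of p.2))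
    (fun p => Set.univ ×ˢ Metric.closedBall ((2 * (1 / 4 : ℝ) ^ p.1 : ℝ) : UnitAddCircle)
      (2 * (1 / 4 : ℝ) ^ p.1)) fun p => MeasurableSet.univ.prod measurableSet_closedBall
  have base : ∀ (n : ℕ) (x : Bool) (y : X × UnitAddCircle) (t : ℝ), y.2 = t → 0 ≤ t →
      t ≤ 4 * (1 / 4 : ℝ) ^ n →
      Relation.ReflTransGen Φ.Step y (b.act y (T.ι n (FreeGroup.of x))) := by
    intro n x y t hy h0 ht
    refine .single ⟨(n, x), Or.inl ⟨⟨trivial, ?_⟩, rfl⟩⟩
    rw [Metric.mem_closedBall, hy, dist_eq_norm, ← AddCircle.coe_sub]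
    refine (QuotientAddGroup.norm_mk_le_norm).trans ?_
    rw [Real.norm_eq_abs, abs_le]
    constructor <;> linarith
  have lift : ∀ y : X × UnitAddCircle, ∃ t : ℝ, y.2 = t ∧ 0 ≤ t ∧ t < 1 := by
    intro y
    obtain ⟨t, ht, e⟩ := AddCircle.eq_coe_Ico y.2
    exact ⟨t, e.symm, ht.1, ht.2⟩
  have lev : ∀ (n : ℕ) (x : Bool) (y : X × UnitAddCircle),
      Relation.ReflTransGen Φ.Step y (b.act y (T.ι n (FreeGroup.of x))) := by
    intro n
    induction n with
    | zero =>
      intro x y
      obtain ⟨t, e, t0, t1⟩ := lift y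
      exact base 0 x y t e t0 (by simp; linarith)
    | succ n ih =>
      set δ : ℝ := (1 / 4 : ℝ) ^ (n + 1) with hδ
      have δ0 : 0 < δ := by positivity
      have key : ∀ (k : ℕ) (x : Bool) (y : X × UnitAddCircle) (t : ℝ), y.2 = t → 0 ≤ t →
          t ≤ (4 + k) * δ →
          Relation.ReflTransGen Φ.Step y (b.act y (T.ι (n + 1) (FreeGroup.of x))) := by
        intro k
        induction k with
        | zero => intro x y t e t0 t1; exact base _ x y t e t0 (by push_cast at t1; linarith)
        | succ k ihk =>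
          intro x y t e t0 t1
          by_cases ht : t ≤ 4 * δ
          · exact base _ x y t e t0 ht
          push Not at ht
          push_cast at t1
          set p := T.ι (n + 1) (FreeGroup.of x) with hp
          set q := T.ι (n + 1) (FreeGroup.of !x) with hq
          have ψp : ψ p = δ := h3 _ _
          have ψq : ψ q = δ := h3 _ _
          have ψi : ψ (p * p * q)⁻¹ = -(3 * δ) := by
            have := h1 (p * p * q)⁻¹ (p * p * q)
            rw [inv_mul_cancel, h2, h1, h1, ψp, ψq] at this
            linarith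
          set y0 := b.act y (p * p * q)⁻¹ with hy0
          have e0 : y0.2 = ((t - 3 * δ : ℝ) : UnitAddCircle) := by
            rw [hy0, hb2, e, ψi, ← AddCircle.coe_add]; rfl
          have e1 : (b.act y0 p).2 = ((t - 2 * δ : ℝ) : UnitAddCircle) := by
            rw [hb2, e0, ψp, ← AddCircle.coe_add]; congr 1; ring
          have e2 : (b.act (b.act y0 p) p).2 = ((t - δ : ℝ) : UnitAddCircle) := by
            rw [hb2, e1, ψp, ← AddCircle.coe_add]; congr 1; ring
          have s0 := ihk x y0 _ e0 (by linarith) (by linarith)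
          have s1 := ihk x _ _ e1 (by linarith) (by linarith)
          have s2 := ihk (!x) _ _ e2 (by linarith) (by linarith)
          have s3 := (s0.trans s1).trans s2
          rw [b.act_mul, b.act_mul, ← mul_assoc, hy0, b.inv_cancel'] at s3
          have s4 := ih x y0
          rw [T.compat, phi_of, map_mul, map_mul, map_mul, ← b.act_mul, hy0, b.inv_cancel'] at s4
          exact (Φ.rsymm s3).trans s4
      intro x y
      obtain ⟨t, e, t0, t1⟩ := lift y
      obtain ⟨k, hk⟩ := exists_nat_ge (t / δ)
      rw [div_le_iff₀ δ0] at hk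
      exact key k x y t e t0 (by nlinarith)
  have gen : Φ.Generates := by
    refine Filter.Eventually.of_forall fun y g => ?_
    obtain ⟨n, w, rfl⟩ := T.exh g
    induction w using FreeGroup.induction_on generalizing y with
    | C1 => rw [map_one, b.act_one]
    | of x => exact lev n x y
    | inv_of x _ =>
      have := lev n x (b.act y (T.ι n (FreeGroup.of x))⁻¹)
      rw [b.inv_cancel'] at this
      rw [map_inv]
      exact Φ.rsymm this
    | mul u v hu hv =>
      rw [map_mul, ← b.act_mul]
      exact (hu y).trans (hv _)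
  refine lt_of_le_of_lt (iInf₂_le Φ gen) ?_
  have hs : Summable fun p : ℕ × Bool => 4 * (1 / 4 : ℝ) ^ p.1 := by
    rw [summable_prod_of_nonneg fun p => by positivity]
    refine ⟨fun n => Summable.of_finite, ?_⟩
    simp only [tsum_fintype, Finset.sum_const]
    exact ((summable_geometric_of_lt_one (by norm_num) (by norm_num)).mul_left 4).const_smul _
  refine lt_of_le_of_lt (ENNReal.tsum_le_tsum fun p => ?_) hs.tsum_ofReal_lt_top
  show (μ.prod volume) (Set.univ ×ˢ _) ≤ _
  rw [Measure.prod_prod, measure_univ, one_mul, AddCircle.volume_closedBall]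
  exact ENNReal.ofReal_le_ofReal ((min_le_right _ _).trans (by linarith))

end Vale.Agent.P189
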