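import Vale.Agent.P189.Walk

/-! Folding a fibred labelled graph one pair of half edges at a time. -/

namespace Vale.Agent.P189
open Finset
open scoped Classical

structure FG (Y E J : Type) where
  mv : Y → Lt → Y
  mv_inv : ∀ y l, mv (mv y l) (inv l) = y
  w : E → Lt
  s : E → J
  t : E → J
  P : Y → E → Prop
  b : J
  s_inj : ∀ e e', s e = s e' → s e ≠ b → e = e'
  t_inj : ∀ e e', t e = t e' → t e ≠ b → e = e'
  nd_t : ∀ y e, P y e → t e ≠ b → ∃ e', P (mv y (w e)) e' ∧ s e' = t e ∧ w e' ≠ inv (w e)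
  nd_s : ∀ y e, P y e → s e ≠ b →
    ∃ e', P (mv y (inv (w e'))) e' ∧ t e' = s e ∧ w e ≠ inv (w e')

namespace FG
variable {Y E J : Type} (G : FG Y E J)

def lab (h : E × Bool) : Lt := if h.2 then G.w h.1 else inv (G.w h.1)
def src (h : E × Bool) : J := if h.2 then G.s h.1 else G.t h.1
def tgt (h : E × Bool) : J := if h.2 then G.t h.1 else G.s h.1
def pres (y : Y) (h : E × Bool) : Prop :=
  if h.2 then G.P y h.1 else G.P (G.mv y (inv (G.w h.1))) h.1

def rev (h : E × Bool) : E × Bool := (h.1, !h.2)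

lemma mv_inv' (y : Y) (l : Lt) : G.mv (G.mv y (inv l)) l = y := by
  have := G.mv_inv y (inv l); rwa [inv_inv'] at this

@[simp] lemma lab_rev (h : E × Bool) : G.lab (rev h) = inv (G.lab h) := by
  rcases h with ⟨e, _ | _⟩ <;> simp [lab, rev]
@[simp] lemma src_rev (h : E × Bool) : G.src (rev h) = G.tgt h := by
  rcases h with ⟨e, _ | _⟩ <;> simp [src, tgt, rev]
@[simp] lemma tgt_rev (h : E × Bool) : G.tgt (rev h) = G.src h := by
  rcases h with ⟨e, _ | _⟩ <;> simp [src, tgt, rev]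
lemma pres_rev {y : Y} {h : E × Bool} (hp : G.pres y h) : G.pres (G.mv y (G.lab h)) (rev h) := by
  rcases h with ⟨e, _ | _⟩
  · simpa [pres, lab, rev] using hp
  · simpa [pres, lab, rev, G.mv_inv] using hp

lemma nondeg {y : Y} {h : E × Bool} (hp : G.pres y h) (hb : G.src h ≠ G.b) :
    ∃ h', G.pres y h' ∧ G.src h' = G.src h ∧ G.lab h' ≠ G.lab h := by
  rcases h with ⟨e, _ | _⟩
  · obtain ⟨e', h1, h2, h3⟩ := G.nd_t _ e (by simpa [pres] using hp) (by simpa [src] using hb)
    rw [G.mv_inv'] at h1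
    exact ⟨(e', true), by simpa [pres] using h1, by simpa [src] using h2, by simpa [lab] using h3⟩
  · obtain ⟨e', h1, h2, h3⟩ := G.nd_s _ e (by simpa [pres] using hp) (by simpa [src] using hb)
    exact ⟨(e', false), by simpa [pres] using h1, by simpa [src] using h2,
      by simpa [lab] using h3.symm⟩

variable [Fintype E]

def cls (σ : Y → J → J) (y : Y) (h : E × Bool) : Lt × J × J :=
  (G.lab h, σ y (G.src h), σ (G.mv y (G.lab h)) (G.tgt h))

noncomputable def HC (σ : Y → J → J) (y : Y) : Finset (Lt × J × J) :=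
  (univ.filter (G.pres y)).image (G.cls σ y)

noncomputable def PP (y : Y) : Finset J := insert G.b ((univ.filter (G.pres y)).image G.src)

noncomputable def VC (σ : Y → J → J) (y : Y) : Finset J := (G.PP y).image (σ y)

noncomputable def XX (σ : Y → J → J) (y : Y) : ℕ :=
  (G.HC σ y).card - (2 * (G.VC σ y).card + 2)

lemma cls_mem (σ : Y → J → J) {y : Y} {h : E × Bool} (hp : G.pres y h) :
    G.cls σ y h ∈ G.HC σ y := mem_image_of_mem _ (by simpa using hp)

def actv (σ : Y → J → J) (h h' : E × Bool) (Z : Y → Prop) (y : Y) : Prop :=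
  Z y ∧ G.pres y h ∧ G.pres y h' ∧ G.lab h = G.lab h' ∧ σ y (G.src h) = σ y (G.src h')

noncomputable def mg (σ : Y → J → J) (h h' : E × Bool) (Z : Y → Prop) (z : Y) (a : J) : J :=
  if G.actv σ h h' Z (G.mv z (inv (G.lab h))) ∧ a = σ z (G.tgt h') then σ z (G.tgt h) else a

noncomputable def nxt (σ : Y → J → J) (h h' : E × Bool) (Z : Y → Prop) (z : Y) (j : J) : J :=
  G.mg σ h h' Z z (σ z j)

def dl (σ : Y → J → J) (h h' : E × Bool) (Z : Y → Prop) (y : Y) : Prop :=
  G.actv σ h h' Z y ∧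
    σ (G.mv y (G.lab h)) (G.tgt h) ≠ σ (G.mv y (G.lab h)) (G.tgt h')

omit [Fintype E] in
lemma mg_tgt {σ : Y → J → J} {h h' : E × Bool} {Z : Y → Prop} {y : Y} (ha : G.actv σ h h' Z y) :
    G.mg σ h h' Z (G.mv y (G.lab h)) (σ (G.mv y (G.lab h)) (G.tgt h)) =
      G.mg σ h h' Z (G.mv y (G.lab h)) (σ (G.mv y (G.lab h)) (G.tgt h')) := by
  unfold mg
  rw [G.mv_inv, if_pos (And.intro ha rfl)]
  split_ifs <;> rfl

lemma VC_nxt (σ : Y → J → J) (h h' : E × Bool) (Z : Y → Prop) (z : Y) :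
    (G.VC σ z).card ≤ (G.VC (G.nxt σ h h' Z) z).card +
      if G.dl σ h h' Z (G.mv z (inv (G.lab h))) then 1 else 0 := by
  have e : G.VC (G.nxt σ h h' Z) z = (G.VC σ z).image (G.mg σ h h' Z z) := by
    unfold VC; rw [image_image]; rfl
  rw [e]
  split_ifs with hd
  · have : (G.VC σ z).erase (σ z (G.tgt h')) ⊆ (G.VC σ z).image (G.mg σ h h' Z z) := by
      intro a ha
      rw [mem_erase] at ha
      exact mem_image.2 ⟨a, ha.2, by simp [mg, ha.1]⟩
    have h1 := card_le_card this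
    have h2 := Finset.pred_card_le_card_erase (s := G.VC σ z) (a := σ z (G.tgt h'))
    omega
  · have : G.mg σ h h' Z z = id := by
      funext a
      unfold mg
      split_ifs with hc
      · unfold dl at hd
        rw [G.mv_inv'] at hd
        push Not at hd
        rw [hd hc.1, hc.2]; rfl
      · rfl
    simp [this]

lemma img_le {α β : Type} [DecidableEq α] [DecidableEq β] (f : α → β) (Q R : Finset α) (hR : R ⊆ Q)
    (tw : ∀ r ∈ R, ∃ q ∈ Q, q ∉ R ∧ f q = f r) : (Q.image f).card + R.card ≤ Q.card := by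
  have : Q.image f ⊆ (Q \ R).image f := by
    intro a ha
    obtain ⟨q, hq, rfl⟩ := mem_image.1 ha
    by_cases hr : q ∈ R
    · obtain ⟨q', h1, h2, h3⟩ := tw q hr
      exact mem_image.2 ⟨q', mem_sdiff.2 ⟨h1, h2⟩, h3⟩
    · exact mem_image.2 ⟨q, mem_sdiff.2 ⟨hq, hr⟩, rfl⟩
  have h1 := (card_le_card this).trans card_image_le
  have h2 := card_sdiff_add_card_eq_card hR
  omega

lemma HC_nxt (σ : Y → J → J) (h h' : E × Bool) (Z : Y → Prop) (y : Y) :
    (G.HC (G.nxt σ h h' Z) y).card + (if G.dl σ h h' Z y then 1 else 0) +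
      (if G.dl σ h h' Z (G.mv y (inv (G.lab h))) then 1 else 0) ≤ (G.HC σ y).card := by
  set f : Lt × J × J → Lt × J × J :=
    fun t => (t.1, G.mg σ h h' Z y t.2.1, G.mg σ h h' Z (G.mv y t.1) t.2.2) with hf
  have e : G.HC (G.nxt σ h h' Z) y = (G.HC σ y).image f := by
    unfold HC; rw [image_image]; rfl
  rw [e]
  have A : G.dl σ h h' Z y → G.cls σ y h ∈ G.HC σ y ∧ G.cls σ y h' ∈ G.HC σ y ∧
      G.cls σ y h ≠ G.cls σ y h' ∧ f (G.cls σ y h) = f (G.cls σ y h') ∧
      (G.cls σ y h).1 = G.lab h ∧ (G.cls σ y h').1 = G.lab h := by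
    rintro ⟨ha, hne⟩
    have hl := ha.2.2.2.1
    refine ⟨G.cls_mem σ ha.2.1, G.cls_mem σ ha.2.2.1, fun he => hne ?_, ?_, rfl, hl.symm⟩
    · have := congrArg (fun t : Lt × J × J => t.2.2) he
      simpa [cls, ← hl] using this
    · simp only [hf, cls, ← hl, ha.2.2.2.2, G.mg_tgt ha]
  have B : G.dl σ h h' Z (G.mv y (inv (G.lab h))) → G.cls σ y (rev h) ∈ G.HC σ y ∧
      G.cls σ y (rev h') ∈ G.HC σ y ∧
      G.cls σ y (rev h) ≠ G.cls σ y (rev h') ∧ f (G.cls σ y (rev h)) = f (G.cls σ y (rev h')) ∧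
      (G.cls σ y (rev h)).1 = inv (G.lab h) ∧ (G.cls σ y (rev h')).1 = inv (G.lab h) := by
    rintro ⟨ha, hne⟩
    have hl := ha.2.2.2.1
    have p1 := G.pres_rev ha.2.1
    have p2 := G.pres_rev ha.2.2.1
    have m := G.mg_tgt ha
    rw [← hl] at p2
    rw [G.mv_inv'] at p1 p2 hne m
    refine ⟨G.cls_mem σ p1, G.cls_mem σ p2, fun he => hne ?_, ?_, by simp [cls], by simp [cls, hl]⟩
    · have := congrArg (fun t : Lt × J × J => t.2.1) he
      simpa [cls] using this
    · simp only [hf, cls, lab_rev, src_rev, tgt_rev, ← hl, ha.2.2.2.2, m]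
  by_cases d1 : G.dl σ h h' Z y <;> by_cases d2 : G.dl σ h h' Z (G.mv y (inv (G.lab h)))
  · obtain ⟨a1, a2, a3, a4, a5, a6⟩ := A d1
    obtain ⟨b1, b2, b3, b4, b5, b6⟩ := B d2
    have n1 : G.cls σ y h' ≠ G.cls σ y (rev h') := fun he => inv_ne _ (by rw [← b6, ← he, a6])
    have n2 : G.cls σ y h ≠ G.cls σ y (rev h') := fun he => inv_ne _ (by rw [← b6, ← he, a5])
    have n3 : G.cls σ y (rev h) ≠ G.cls σ y h' := fun he => inv_ne _ (by rw [← b5, he, a6])
    have := img_le f (G.HC σ y) {G.cls σ y h', G.cls σ y (rev h')}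
      (by intro a ha; simp only [mem_insert, mem_singleton] at ha; rcases ha with rfl | rfl <;>
          assumption)
      (by
        intro a ha
        simp only [mem_insert, mem_singleton] at ha
        rcases ha with rfl | rfl
        · exact ⟨_, a1, by simp [a3, n2], a4⟩
        · exact ⟨_, b1, by simp [b3, n3], b4⟩)
    rw [card_pair n1] at this
    simp only [d1, d2, if_true]; omega
  · obtain ⟨a1, a2, a3, a4, a5, a6⟩ := A d1
    have := img_le f (G.HC σ y) {G.cls σ y h'} (by simpa using a2)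
      (by intro a ha; rw [mem_singleton.1 ha]; exact ⟨_, a1, by simp [a3], a4⟩)
    simpa [d1, d2] using this
  · obtain ⟨b1, b2, b3, b4, b5, b6⟩ := B d2
    have := img_le f (G.HC σ y) {G.cls σ y (rev h')} (by simpa using b2)
      (by intro a ha; rw [mem_singleton.1 ha]; exact ⟨_, b1, by simp [b3], b4⟩)
    simpa [d1, d2] using this
  · simpa [d1, d2] using card_image_le

lemma dg_id (y : Y) {v : J} (hv : v ≠ G.b) : dg (G.HC (fun _ => id) y) v ≤ 2 := by
  unfold dg HC
  rw [filter_image]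
  refine card_image_le.trans ?_
  have : (univ : Finset Bool).card = 2 := by simp
  rw [← this]
  refine card_le_card_of_injOn Prod.snd (fun _ _ => by simp) ?_
  rintro ⟨e, c⟩ h1 ⟨e', c'⟩ h2 hc
  simp only at hc
  subst hc
  have k1 : G.src (e, c) = v := (mem_filter.1 (mem_coe.1 h1)).2
  have k2 : G.src (e', c) = v := (mem_filter.1 (mem_coe.1 h2)).2
  cases c
  · simp only [src, Bool.false_eq_true, if_false] at k1 k2
    rw [G.t_inj e e' (k1.trans k2.symm) (k1 ▸ hv)]
  · simp only [src, if_true] at k1 k2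
    rw [G.s_inj e e' (k1.trans k2.symm) (k1 ▸ hv)]

lemma init_count (y : Y) :
    (G.HC (fun _ => id) y).card + 2 + (univ.filter (G.P y)).card ≤
      2 * (G.VC (fun _ => id) y).card +
        (univ.filter fun e => G.P (G.mv y (inv (G.w e))) e).card +
        2 * (univ.filter fun e => G.P y e ∧ G.s e = G.b).card := by
  have h1 : (G.HC (fun _ => id) y).card ≤ (univ.filter (G.P y)).card +
      (univ.filter fun e => G.P (G.mv y (inv (G.w e))) e).card := by
    refine card_image_le.trans ?_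
    rw [card_filter, card_filter, card_filter, ← sum_add_distrib, Fintype.sum_prod_type]
    refine sum_le_sum fun e _ => ?_
    rw [Fintype.sum_bool]
    simp only [pres, if_true, Bool.false_eq_true, if_false]
    exact le_rfl
  have h2 : (univ.filter fun e => G.P y e ∧ G.s e ≠ G.b).card + 1 ≤
      (G.VC (fun _ => id) y).card := by
    have e1 : G.VC (fun _ => id) y = G.PP y := by simp [VC]
    have : insert G.b ((univ.filter fun e => G.P y e ∧ G.s e ≠ G.b).image G.s) ⊆ G.PP y := by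
      refine insert_subset_insert _ fun a ha => ?_
      obtain ⟨e, he, rfl⟩ := mem_image.1 ha
      exact mem_image.2 ⟨(e, true), by simpa [pres] using (mem_filter.1 he).2.1, by simp [src]⟩
    have h3 := card_le_card this
    rw [card_insert_of_notMem (by
      intro ha
      obtain ⟨e, he, h4⟩ := mem_image.1 ha
      exact (mem_filter.1 he).2.2 h4), card_image_of_injOn (by
      intro e he e' _ h4
      exact G.s_inj e e' h4 (mem_filter.1 he).2.2)] at h3
    rwa [e1]
  have h3 : (univ.filter (G.P y)).card = (univ.filter fun e => G.P y e ∧ G.s e = G.b).card +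
      (univ.filter fun e => G.P y e ∧ G.s e ≠ G.b).card := by
    rw [← filter_filter, ← filter_filter, card_filter_add_card_filter_not]
  omega

end FG

structure FS (Y E J : Type) extends FG Y E J where
  k : ℕ
  pt : Y → Lt → ℕ → Y
  pt0 : ∀ y s, pt y s 0 = y
  ptS : ∀ y s i, pt y s (i + 1) = mv (pt y s i) (ws (4 ^ k) s i)
  ar : Lt → ℕ → E × Bool
  vx : Lt → ℕ → J
  vx0 : ∀ s, vx s 0 = b
  vxL : ∀ s, vx s (4 ^ k) = b
  vx_ne : ∀ s i, 0 < i → i < 4 ^ k → vx s i ≠ b
  ar_lab : ∀ s i, i < 4 ^ k → toFG.lab (ar s i) = ws (4 ^ k) s i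
  ar_src : ∀ s i, i < 4 ^ k → toFG.src (ar s i) = vx s i
  ar_tgt : ∀ s i, i < 4 ^ k → toFG.tgt (ar s i) = vx s (i + 1)
  ar_pres : ∀ y s i, i < 4 ^ k → toFG.pres y (ar s i)

namespace FS
variable {Y E J : Type} [Fintype E] (S : FS Y E J)

noncomputable def sys (σ : Y → J → J) : Sys Y J where
  mv := S.mv
  mv_inv := S.mv_inv
  HC := S.HC σ
  sym y l u v h := by
    obtain ⟨e, he, h1⟩ := mem_image.1 h
    simp only [FG.cls, Prod.mk.injEq] at h1
    obtain ⟨rfl, rfl, rfl⟩ := h1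
    have := S.cls_mem σ (S.pres_rev (mem_filter.1 he).2)
    simpa [FG.cls, S.mv_inv] using this
  bs y := σ y S.b
  k := S.k
  pt := S.pt
  pt0 := S.pt0
  ptS := S.ptS
  cl y s i := σ (S.pt y s i) (S.vx s i)
  cl0 y s := by rw [S.pt0, S.vx0]
  clL y s := by rw [S.vxL]
  step y s i hi := by
    have := S.cls_mem σ (S.ar_pres (S.pt y s i) s i hi)
    simpa [FG.cls, S.ar_lab s i hi, S.ar_src s i hi, S.ar_tgt s i hi, S.ptS] using this

lemma exc (σ : Y → J → J) (y : Y) :
    2 * (S.VC σ y).card + 2 ≤ (S.HC σ y).card ∧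
      ((S.HC σ y).filter fun t => Ir (S.HC σ y) (σ y S.b) t.2.1).card ≤ 5 * S.XX σ y ∧
      (5 ≤ dg (S.HC σ y) (σ y S.b) → 1 ≤ S.XX σ y) := by
  have h4 : 4 ≤ dg (S.HC σ y) (σ y S.b) := (S.sys σ).four_le y
  refine excess _ _ _ (mem_image_of_mem _ (mem_insert_self _ _)) ?_ ?_ h4
  · intro t ht
    obtain ⟨e, he, rfl⟩ := mem_image.1 ht
    exact mem_image_of_mem _ (mem_insert_of_mem (mem_image_of_mem _ he))
  · intro v hv
    obtain ⟨j, hj, rfl⟩ := mem_image.1 hv
    by_cases hb : j = S.b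
    · rw [hb]; omega
    · rcases mem_insert.1 hj with h | h
      · exact absurd h hb
      · obtain ⟨e, he, rfl⟩ := mem_image.1 h
        obtain ⟨e', h1, h2, h3⟩ := S.nondeg (mem_filter.1 he).2 hb
        refine Finset.one_lt_card.2 ⟨S.cls σ y e', ?_, S.cls σ y e, ?_, fun h => h3 ?_⟩
        · exact mem_filter.2 ⟨S.cls_mem σ h1, by simp [FG.cls, h2]⟩
        · exact mem_filter.2 ⟨S.cls_mem σ (mem_filter.1 he).2, rfl⟩
        · exact congrArg Prod.fst h

lemma XX_nxt (σ : Y → J → J) (h h' : E × Bool) (Z : Y → Prop) (y : Y) :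
    S.XX (S.nxt σ h h' Z) y + (if S.dl σ h h' Z y then 1 else 0) ≤
      S.XX σ y + if S.dl σ h h' Z (S.mv y (inv (S.lab h))) then 1 else 0 := by
  have h1 := S.HC_nxt σ h h' Z y
  have h2 := S.VC_nxt σ h h' Z y
  have h3 := (S.exc σ y).1
  have h4 := (S.exc (S.nxt σ h h' Z) y).1
  unfold FG.XX
  omega

lemma XX_init (y : Y) :
    S.XX (fun _ => id) y + 4 + (univ.filter (S.P y)).card ≤
        (univ.filter fun e => S.P (S.mv y (inv (S.w e))) e).card +
        2 * (univ.filter fun e => S.P y e ∧ S.s e = S.b).card := by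
  have h1 := S.init_count y
  have h3 := (S.exc (fun _ => id) y).1
  unfold FG.XX
  omega

lemma U_init (y : Y) : (S.sys fun _ => id).U y := fun s i h0 hi =>
  ⟨S.vx_ne s i h0 hi, S.dg_id _ (S.vx_ne s i h0 hi)⟩

lemma U_congr {σ σ' : Y → J → J} {y : Y}
    (h : ∀ s i, i < 4 ^ S.k → σ' (S.pt y s i) = σ (S.pt y s i) ∧
      ∀ l, σ' (S.mv (S.pt y s i) l) = σ (S.mv (S.pt y s i) l)) (hU : (S.sys σ).U y) :
    (S.sys σ').U y := by
  intro s i h0 hi
  have := hU s i h0 hi
  have e : S.HC σ' (S.pt y s i) = S.HC σ (S.pt y s i) := by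
    unfold FG.HC
    congr 1
    funext e
    simp only [FG.cls, (h s i hi).1, (h s i hi).2]
  show Rg (S.HC σ' (S.pt y s i)) (σ' (S.pt y s i) S.b) (σ' (S.pt y s i) (S.vx s i))
  rw [e, (h s i hi).1]
  exact this

end FS

end Vale.Agent.P189
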