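import Vale.Agent.P189.Arc

/-! The group: a direct limit of free groups. -/

namespace Vale.Agent.P189
open FreeGroup hiding map_mul map_one map_inv

def sbl (l : Lt) : List Lt :=
  if l.2 then [(l.1, true), (l.1, true), (!l.1, true), (l.1, true)]
  else [(l.1, false), (!l.1, false), (l.1, false), (l.1, false)]

lemma ev_true (x : Bool) : ev (x, true) = of x := rfl

lemma ev_false (x : Bool) : ev (x, false) = (of x)⁻¹ := ev_inv (x, true)

lemma mk_cons (l : Lt) (L : List Lt) : FreeGroup.mk (l :: L) = ev l * FreeGroup.mk L := by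
  rw [ev, mul_mk]; rfl

lemma phi_ev (l : Lt) : phi (ev l) = FreeGroup.mk (sbl l) := by
  rcases l with ⟨x, _ | _⟩
  · simp only [sbl, Bool.false_eq_true, if_false, mk_cons, ev_false, map_inv, phi_of, ← one_eq_mk]
    group
  · simp only [sbl, if_true, mk_cons, ev_true, phi_of, ← one_eq_mk]
    group

lemma phi_mk (L : List Lt) : phi (FreeGroup.mk L) = FreeGroup.mk (L.flatMap sbl) := by
  induction L with
  | nil => simp [← one_eq_mk]
  | cons l L ih => rw [mk_cons, map_mul, ih, phi_ev, mul_mk, List.flatMap_cons]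

lemma red_sbl (L : List Lt) : ∀ a, IsReduced (a :: L) → IsReduced ((a :: L).flatMap sbl) := by
  induction L with
  | nil => rintro ⟨_ | _, _ | _⟩ _ <;> simp [sbl]
  | cons b L ih =>
    intro a h
    rw [isReduced_cons_cons] at h
    have := ih b h.2
    have h1 := h.1
    rcases a with ⟨_ | _, _ | _⟩ <;> rcases b with ⟨_ | _, _ | _⟩ <;> simp_all [sbl]

lemma phi_injective : Function.Injective phi := by
  rw [injective_iff_map_eq_one]
  intro w hw
  rw [← toWord_eq_nil_iff]
  by_contra hne
  obtain ⟨a, L, e⟩ := List.exists_cons_of_ne_nil hne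
  have hr := red_sbl L a (e ▸ isReduced_toWord)
  have h1 : (phi w).toWord = (a :: L).flatMap sbl := by
    conv_lhs => rw [← mk_toWord (x := w), e, phi_mk, toWord_mk, hr.reduce_eq]
  rw [hw, toWord_one] at h1
  have := congrArg List.length h1
  rcases a with ⟨x, _ | _⟩ <;> simp [sbl] at this

def dmap (i j : ℕ) (_ : i ≤ j) : F2 →* F2 := (show Monoid.End F2 from phi) ^ (j - i)

lemma dmap_apply (i j : ℕ) (h : i ≤ j) (w : F2) : dmap i j h w = phi^[j - i] w := by
  unfold dmap
  exact congrFun (Monoid.End.coe_pow F2 _ _) w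

instance : DirectedSystem (fun _ : ℕ => F2) (dmap · · ·) where
  map_self i x := by simp [dmap_apply]
  map_map k j i hij hjk x := by
    simp only [dmap_apply]
    rw [← Function.iterate_add_apply]
    congr 1
    omega

theorem exists_tower : ∃ (Γ : Type) (_ : Group Γ), Nonempty (Tower Γ) := by
  refine ⟨DirectLimit (fun _ : ℕ => F2) dmap, inferInstance, ⟨⟨fun n => MonoidHom.mk'
    (fun w => ⟦⟨n, w⟩⟧) fun a b => (DirectLimit.mul_def (f := dmap) n a b).symm, fun n => ?_, fun n w => ?_,
    fun g => ?_⟩⟩⟩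
  · refine DirectLimit.mk_injective dmap (fun i j h a b hab => ?_) n
    rw [dmap_apply, dmap_apply] at hab
    exact phi_injective.iterate _ hab
  · have := DirectLimit.eq_of_le (f := dmap) ⟨n, w⟩ (n + 1) (Nat.le_succ n)
    simpa [dmap_apply] using this
  · obtain ⟨n, w, h⟩ := DirectLimit.exists_eq_mk dmap g
    exact ⟨n, w, h.symm⟩

lemma phi_prd (n m : ℕ) (x : Bool) (i : ℕ) :
    phi (prd (ws n (x, true)) i) = prd (ws m (x, true)) (4 * i) := by
  induction i with
  | zero => simp [prd]
  | succ i ih =>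
    have e : 4 * (i + 1) = 4 * i + 1 + 1 + 1 + 1 := by ring
    rw [e]
    simp only [prd, map_mul, ih, ws, if_true, ev_true, phi_of, tau0, tau1, add_assoc]
    norm_num only
    rw [tau2, tau3]
    cases x <;> cases tau i <;> simp [mul_assoc]

lemma sub_succ (k : ℕ) (x : Bool) : sub (k + 1) x = phi (sub k x) := by
  unfold sub
  rw [phi_prd _ (4 ^ (k + 1)), pow_succ']

lemma sub_zero' (x : Bool) : sub 0 x = of x := by
  simp [sub, prd, ws, tau_zero, ev_true]

namespace Tower
variable {Γ : Type} [Group Γ] (T : Tower Γ)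

lemma up (n k : ℕ) (w : F2) : T.ι n w = T.ι (n + k) (phi^[k] w) := by
  induction k with
  | zero => rfl
  | succ k ih => rw [ih, T.compat, Function.iterate_succ_apply', add_assoc]

lemma of_sub (n k : ℕ) (x : Bool) : T.ι n (of x) = T.ι (n + k) (sub k x) := by
  induction k with
  | zero => rw [sub_zero']; rfl
  | succ k ih => rw [ih, T.compat, sub_succ, add_assoc]

lemma up_le {n m : ℕ} (h : n ≤ m) (w : F2) : ∃ v, T.ι m v = T.ι n w := by
  obtain ⟨k, rfl⟩ := Nat.exists_eq_add_of_le h
  exact ⟨_, (T.up n k w).symm⟩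

lemma exh_finset (D : Finset Γ) : ∃ n, ∀ m, n ≤ m → ∀ d ∈ D, ∃ v, T.ι m v = d := by
  choose n w hw using T.exh
  refine ⟨D.sup n, fun m hm d hd => ?_⟩
  rw [← hw d]
  exact T.up_le ((Finset.le_sup hd).trans hm) _

include T in
lemma countable : Countable Γ :=
  Function.Surjective.countable (f := fun p : ℕ × F2 => T.ι p.1 p.2) fun g => by
    obtain ⟨n, w, h⟩ := T.exh g
    exact ⟨(n, w), h⟩

include T in
lemma tf {g : Γ} (hg : g ≠ 1) : Function.Injective fun n : ℕ => g ^ n := by
  obtain ⟨n, w, rfl⟩ := T.exh g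
  have hw : w ≠ 1 := fun h => hg (by rw [h, map_one])
  intro i j h
  simp only [← map_pow] at h
  exact (injective_pow_iff_not_isOfFinOrder.2 (not_isOfFinOrder_of_isMulTorsionFree hw))
    (T.inj n h)

noncomputable def psn (n : ℕ) : F2 →* Multiplicative ℝ :=
  FreeGroup.lift fun _ => Multiplicative.ofAdd ((1 / 4 : ℝ) ^ n)

lemma psn_phi (n : ℕ) (w : F2) : psn (n + 1) (phi w) = psn n w := by
  have : (psn (n + 1)).comp phi = psn n := by
    ext x
    simp only [MonoidHom.comp_apply, phi_of, map_mul, psn, lift_apply_of, ← ofAdd_add]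
    congr 1
    ring
  exact DFunLike.congr_fun this w

lemma psn_up (n k : ℕ) (w : F2) : psn (n + k) (phi^[k] w) = psn n w := by
  induction k with
  | zero => rfl
  | succ k ih => rw [Function.iterate_succ_apply', ← add_assoc, psn_phi, ih]

lemma psn_wd {n n' : ℕ} {w w' : F2} (h : T.ι n w = T.ι n' w') : psn n w = psn n' w' := by
  rw [T.up n n' w, T.up n' n w', add_comm n' n] at h
  rw [← psn_up n n' w, ← psn_up n' n w', T.inj _ h, add_comm n' n]

include T in
lemma exists_psi : ∃ ψ : Γ → ℝ, (∀ g h, ψ (g * h) = ψ g + ψ h) ∧ ψ 1 = 0 ∧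
    ∀ n x, ψ (T.ι n (of x)) = (1 / 4 : ℝ) ^ n := by
  classical
  choose n w hw using T.exh
  have key : ∀ m v, psn (n (T.ι m v)) (w (T.ι m v)) = psn m v := fun m v => T.psn_wd (hw _)
  refine ⟨fun g => Multiplicative.toAdd (psn (n g) (w g)), fun g h => ?_, ?_, fun m x => ?_⟩
  · obtain ⟨m, hm⟩ := T.exh_finset {g, h}
    obtain ⟨v, rfl⟩ := hm m le_rfl g (by simp)
    obtain ⟨v', rfl⟩ := hm m le_rfl h (by simp)
    simp only [← map_mul, key]
    simp
  · simp only [← map_one (T.ι 0), key]
    simp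
  · simp only [key]
    simp [psn]

end Tower

end Vale.Agent.P189
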