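import Vale.Agent.P189.Bern
import Vale.Agent.P189.FinCost

/-! The Bernoulli shift of the tower group has infinite cost. -/

open MeasureTheory
open scoped ENNReal

namespace Vale.Agent.P189
open scoped Classical

section
variable {Γ : Type} [Group Γ] {X : Type} [MeasurableSpace X] {μ : Measure X}

inductive Conn (a : PMPAction Γ X μ) (F0 D : Finset Γ) (B : Γ → Set X) (x : X) : Γ → Prop
  | one : Conn a F0 D B x 1
  | gen {g s} : Conn a F0 D B x g → s ∈ F0 → Conn a F0 D B x (g * s)
  | geninv {g s} : Conn a F0 D B x g → s ∈ F0 → Conn a F0 D B x (g * s⁻¹)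
  | fwd {g d} : Conn a F0 D B x g → d ∈ D → a.act x g ∈ B d → Conn a F0 D B x (g * d)
  | bwd {g d} : Conn a F0 D B x g → d ∈ D → a.act x (g * d⁻¹) ∈ B d → Conn a F0 D B x (g * d⁻¹)

lemma Conn.mono {a : PMPAction Γ X μ} {F0 D D' : Finset Γ} {B : Γ → Set X} {x : X} {g : Γ}
    (hD : D ⊆ D') (h : Conn a F0 D B x g) : Conn a F0 D' B x g := by
  induction h with
  | one => exact .one
  | gen _ hs ih => exact .gen ih hs
  | geninv _ hs ih => exact .geninv ih hs
  | fwd _ hd hb ih => exact .fwd ih (hD hd) hb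
  | bwd _ hd hb ih => exact .bwd ih (hD hd) hb

lemma extract [Countable Γ] [StandardBorelSpace X] [IsProbabilityMeasure μ]
    (a : PMPAction Γ X μ) (ha : a.EssFree) (hc : a.cost < ⊤) {ε : ℝ≥0∞} (hε : 0 < ε) :
    ∃ (F0 : Finset Γ) (B : Γ → Set X), (∀ g, MeasurableSet (B g)) ∧
      (∀ D : Finset Γ, ∑ d ∈ D, μ (B d) ≤ ε) ∧
      ∀ g, ∃ D : Finset Γ, 1 / 2 < μ {x | Conn a F0 D B x g} := by
  obtain ⟨Φ, hΦ⟩ := iInf_lt_iff.1 hc
  obtain ⟨gen, hcost⟩ := iInf_lt_iff.1 hΦ
  have := Φ.countable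
  let C : Φ.ι → Γ → Set X := fun i g => Φ.A i ∩ {x | Φ.φ i x = a.act x g}
  have mC : ∀ i g, MeasurableSet (C i g) := fun i g =>
    (Φ.measA i).inter (measurableSet_eq_fun (Φ.mp i).measurable (a.mp g).measurable)
  have free : ∀ᵐ x ∂μ, ∀ g g', a.act x g = a.act x g' → g = g' := by
    rw [ae_all_iff]; intro g
    rw [ae_all_iff]; intro g'
    by_cases e : g = g'
    · exact Filter.Eventually.of_forall fun _ _ => e
    · refine measure_mono_null (fun x hx => ?_) (ha (g * g'⁻¹) fun h => e (mul_inv_eq_one.1 h))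
      simp only [Set.mem_compl_iff, Set.mem_ofPred_eq, Classical.not_imp] at hx
      show a.act x (g * g'⁻¹) = x
      rw [← a.act_mul, hx.1, a.inv_cancel]
  have hsum : ∑' g, μ (⋃ i, C i g) ≠ ∞ := by
    refine ne_top_of_le_ne_top hcost.ne ?_
    refine (ENNReal.tsum_le_tsum fun g => measure_iUnion_le _).trans ?_
    rw [ENNReal.tsum_comm]
    refine ENNReal.tsum_le_tsum fun i => ?_
    refine (tsum_meas_le_meas_iUnion_of_disjoint₀ μ (fun g => (mC i g).nullMeasurableSet)
      fun g g' hne => ?_).trans (measure_mono (Set.iUnion_subset fun g => Set.inter_subset_left))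
    refine measure_mono_null ?_ (ae_iff.1 free)
    intro x hx hx'
    exact hne (hx' g g' (hx.1.2.symm.trans hx.2.2))
  obtain ⟨F0, hF0⟩ := ((ENNReal.tendsto_tsum_compl_atTop_zero hsum).eventually
    (ge_mem_nhds hε)).exists
  refine ⟨F0, fun g => if g ∈ F0 then ∅ else ⋃ i, C i g, fun g => ?_, fun D => ?_, fun g => ?_⟩
  · dsimp only
    split_ifs
    · exact MeasurableSet.empty
    · exact MeasurableSet.iUnion fun i => mC i g
  · refine (ENNReal.sum_le_tsum D).trans (le_trans (le_of_eq ?_) hF0)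
    refine Eq.trans (tsum_congr fun g => ?_)
      (tsum_subtype {x | x ∉ F0} fun g => μ (⋃ i, C i g)).symm
    by_cases h : g ∈ F0 <;> simp [h]
  · set B : Γ → Set X := fun g => if g ∈ F0 then ∅ else ⋃ i, C i g with hB
    have chain : ∀ x z, Relation.ReflTransGen Φ.Step x z →
        ∃ g D, z = a.act x g ∧ Conn a F0 D B x g := by
      intro x z h
      induction h with
      | refl => exact ⟨1, ∅, (a.act_one x).symm, .one⟩
      | @tail z z' _ st ih =>
        obtain ⟨g, D, rfl, hc⟩ := ih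
        obtain ⟨i, ⟨h1, h2⟩ | ⟨h1, h2⟩⟩ := st
        · obtain ⟨d, hd⟩ := Φ.orbit i _ h1
          have e : z' = a.act x (g * d) := by rw [← h2, hd, a.act_mul]
          by_cases hF : d ∈ F0
          · exact ⟨_, D, e, .gen hc hF⟩
          · refine ⟨_, insert d D, e, .fwd (hc.mono (Finset.subset_insert _ _))
              (Finset.mem_insert_self _ _) ?_⟩
            simp only [hB, if_neg hF]
            exact Set.mem_iUnion.2 ⟨i, h1, hd⟩
        · obtain ⟨d, hd⟩ := Φ.orbit i _ h1
          have e : z' = a.act x (g * d⁻¹) := by rw [← a.act_mul, ← h2, hd, a.inv_cancel]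
          by_cases hF : d ∈ F0
          · exact ⟨_, D, e, .geninv hc hF⟩
          · refine ⟨_, insert d D, e, .bwd (hc.mono (Finset.subset_insert _ _))
              (Finset.mem_insert_self _ _) ?_⟩
            simp only [hB, if_neg hF, ← e]
            exact Set.mem_iUnion.2 ⟨i, h1, hd⟩
    have mono : Monotone fun D : Finset Γ => {x | Conn a F0 D B x g} :=
      fun D D' h x hx => Conn.mono h hx
    have full : ∀ᵐ x ∂μ, x ∈ ⋃ D : Finset Γ, {x | Conn a F0 D B x g} := by
      filter_upwards [free, gen] with x h1 h2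
      obtain ⟨g', D, e, hc⟩ := chain x _ (h2 g)
      exact Set.mem_iUnion.2 ⟨D, by rw [h1 g g' e]; exact hc⟩
    have h1 : (1 : ℝ≥0∞) ≤ μ (⋃ D : Finset Γ, {x | Conn a F0 D B x g}) := by
      rw [← measure_univ (μ := μ)]
      exact measure_mono_ae (full.mono fun x hx _ => hx)
    rw [mono.measure_iUnion] at h1
    exact lt_iSup_iff.1 (lt_of_lt_of_le (by norm_num) h1)

end

theorem bern_cost {Γ : Type} [Group Γ] (T : Tower Γ) : (bern Γ).cost = ⊤ := by
  have := T.countable
  have : Infinite Γ := Infinite.of_injective _ (T.inj 0)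
  by_contra hne
  obtain ⟨F0, B, mB, hB, hD⟩ := extract (bern Γ) (bern_free fun g hg => T.tf hg)
    (lt_top_iff_ne_top.2 hne) (ε := ENNReal.ofReal (1 / 10000)) (by simp)
  obtain ⟨n, hn⟩ := T.exh_finset F0
  obtain ⟨D, hE⟩ := hD (T.ι (n + 1) (FreeGroup.of false))
  obtain ⟨k, hk⟩ := T.exh_finset D
  set m := n + 1 + k with hm
  let b : PMPAction F2 (Γ → Bool) (bm Γ) :=
    { act := fun x v => (bern Γ).act x (T.ι m v)
      act_one := fun x => by rw [map_one, (bern Γ).act_one]
      act_mul := fun x g h => by rw [map_mul, (bern Γ).act_mul]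
      mp := fun g => (bern Γ).mp _ }
  have e1 : ∀ x, T.ι m (sub (k + 1) x) = T.ι n (FreeGroup.of x) := fun x => by
    rw [T.of_sub n (k + 1), hm]; congr 2; omega
  have e2 : T.ι m (sub k false) = T.ι (n + 1) (FreeGroup.of false) := (T.of_sub (n + 1) k _).symm
  obtain ⟨U, mU, u0, u1, hU⟩ := fcore b k (D.preimage (T.ι m) (T.inj m).injOn)
    (fun v => B (T.ι m v)) (fun _ => mB _) bern_small _ hE (by
      intro BB b1 bm bi bs bd y hy
      have base : ∀ w y, ∃ v, T.ι m v = T.ι n w ∧ BB y v := by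
        intro w
        induction w using FreeGroup.induction_on with
        | C1 => exact fun y => ⟨1, by simp, b1 y⟩
        | of x => exact fun y => ⟨_, e1 x, bs y x⟩
        | inv_of x _ =>
          intro y
          have := bi _ _ (bs (b.act y (sub (k + 1) x)⁻¹) x)
          rw [b.inv_cancel'] at this
          exact ⟨_, by rw [map_inv, map_inv, e1], this⟩
        | mul u v hu hv =>
          intro y
          obtain ⟨u', h1, h2⟩ := hu y
          obtain ⟨v', h3, h4⟩ := hv (b.act y u')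
          exact ⟨u' * v', by rw [map_mul, map_mul, h1, h3], bm _ _ _ h2 h4⟩
      have all : ∀ g, Conn (bern Γ) F0 D B y g → ∃ v, T.ι m v = g ∧ BB y v := by
        intro g h
        induction h with
        | one => exact ⟨1, map_one _, b1 y⟩
        | gen _ hs ih =>
          obtain ⟨v, rfl, hv⟩ := ih
          obtain ⟨w, rfl⟩ := hn n le_rfl _ hs
          obtain ⟨v', h1, h2⟩ := base w (b.act y v)
          exact ⟨v * v', by rw [map_mul, h1], bm _ _ _ hv h2⟩
        | geninv _ hs ih =>
          obtain ⟨v, rfl, hv⟩ := ih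
          obtain ⟨w, rfl⟩ := hn n le_rfl _ hs
          obtain ⟨v', h1, h2⟩ := base w⁻¹ (b.act y v)
          exact ⟨v * v', by rw [map_mul, h1, map_inv], bm _ _ _ hv h2⟩
        | fwd _ hd hb ih =>
          obtain ⟨v, rfl, hv⟩ := ih
          obtain ⟨w, rfl⟩ := hk m (by omega) _ hd
          exact ⟨v * w, map_mul _ _ _, bm _ _ _ hv (bd _ w (Finset.mem_preimage.2 hd) hb)⟩
        | bwd _ hd hb ih =>
          obtain ⟨v, rfl, hv⟩ := ih
          obtain ⟨w, rfl⟩ := hk m (by omega) _ hd
          rw [← map_inv, ← map_mul] at hb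
          have := bi _ _ (bd (b.act y (v * w⁻¹)) w (Finset.mem_preimage.2 hd) hb)
          rw [b.act_mul, inv_mul_cancel_right] at this
          exact ⟨v * w⁻¹, by rw [map_mul, map_inv], bm _ _ _ hv this⟩
      obtain ⟨v, h1, h2⟩ := all _ hy
      rwa [T.inj m (h1.trans e2.symm)] at h2)
  have h1 := bern_expand (T.ι n) (T.inj n) U mU
  have h2 : ∀ x, (bm Γ).real (U \ (fun y => (bern Γ).act y (T.ι n (FreeGroup.of x))) ⁻¹' U) ≤
      12 / 10000 := by
    intro x
    have h3 := hB ((D.preimage (T.ι m) (T.inj m).injOn).map ⟨_, T.inj m⟩)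
    rw [Finset.sum_map] at h3
    have h4 := (hU x).trans (mul_le_mul_right h3 12)
    refine ENNReal.toReal_le_of_le_ofReal (by norm_num) ?_
    rw [← e1]
    refine h4.trans (le_of_eq ?_)
    rw [← ENNReal.ofReal_ofNat, ← ENNReal.ofReal_mul (by norm_num)]
    norm_num
  rw [Fintype.sum_bool] at h1
  nlinarith [h2 true, h2 false]

theorem main : ∃ (Γ : Type) (_ : Group Γ) (_ : Countable Γ), ¬ FixedPrice Γ ∧
    ∃ (X Y : Type) (_ : MeasurableSpace X) (_ : StandardBorelSpace X) (_ : MeasurableSpace Y)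
      (_ : StandardBorelSpace Y) (μ : Measure X) (ν : Measure Y) (_ : IsProbabilityMeasure μ)
      (_ : IsProbabilityMeasure ν) (a : PMPAction Γ X μ) (b : PMPAction Γ Y ν),
      a.EssFree ∧ b.EssFree ∧ a.cost = ⊤ ∧ b.cost < ⊤ := by
  obtain ⟨Γ, _, ⟨T⟩⟩ := exists_tower
  have := T.countable
  have hf : (bern Γ).EssFree := bern_free fun g hg => T.tf hg
  obtain ⟨b, hb, hc⟩ := fin_cost T (bern Γ) hf
  refine ⟨Γ, inferInstance, inferInstance, fun h => ?_, _, _, inferInstance, inferInstance,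
    inferInstance, inferInstance, _, _, inferInstance, inferInstance, bern Γ, b, hf, hb,
    bern_cost T, hc⟩
  have := h _ _ _ _ (bern Γ) b hf hb
  rw [bern_cost T] at this
  exact hc.ne this.symm

end Vale.Agent.P189
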