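import Vale.Agent.P189.Seq

/-! Measurability of the folding data. -/

open MeasureTheory
open scoped ENNReal

namespace Vale.Agent.P189
open Finset
open scoped Classical

section
variable {Y : Type} [MeasurableSpace Y] {α β ι : Type}

def Cm (f : Y → α) : Prop := @Measurable Y α _ ⊤ f

lemma Cm.comp {f : Y → α} (hf : Cm f) (g : α → β) : Cm fun y => g (f y) :=
  (@measurable_from_top α β ⊤ g).comp hf

lemma Cm.fib {f : Y → α} (hf : Cm f) (a : α) : MeasurableSet {y | f y = a} :=
  hf (t := {a}) trivial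

lemma Cm.of_fib [Countable α] {f : Y → α} (h : ∀ a, MeasurableSet {y | f y = a}) : Cm f :=
  @measurable_to_countable' α Y ⊤ _ _ f h

lemma Cm.const (a : α) : Cm fun _ : Y => a := @measurable_const α Y ⊤ _ a

lemma Cm.pair [Countable α] [Countable β] {f : Y → α} {g : Y → β} (hf : Cm f) (hg : Cm g) :
    Cm fun y => (f y, g y) := by
  refine Cm.of_fib fun a => ?_
  have : {y | (f y, g y) = a} = {y | f y = a.1} ∩ {y | g y = a.2} := by
    ext y; simp [Prod.ext_iff]
  rw [this]; exact (hf.fib _).inter (hg.fib _)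

lemma Cm.pi [Finite ι] [Countable α] {f : Y → ι → α} (hf : ∀ i, Cm fun y => f y i) : Cm f := by
  refine Cm.of_fib fun a => ?_
  have : {y | f y = a} = ⋂ i, {y | f y i = a i} := by
    ext y; simp [funext_iff]
  rw [this]; exact MeasurableSet.iInter fun i => (hf i).fib _

lemma Cm.pre {f : Y → α} (hf : Cm f) {φ : Y → Y} (hφ : Measurable φ) : Cm fun y => f (φ y) :=
  fun _ ht => hφ (hf ht)

lemma Cm.set {p : Y → Prop} (hp : Cm p) : MeasurableSet {y | p y} := by
  simpa using hp.fib True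

lemma Cm.of_set {p : Y → Prop} (hp : MeasurableSet {y | p y}) : Cm p :=
  measurableSet_setOfPred.1 hp

lemma Cm.ennreal {f : Y → ℕ} (hf : Cm f) : Measurable fun y => (f y : ℝ≥0∞) :=
  (@measurable_from_top ℕ ℝ≥0∞ _ _).comp hf

lemma lint_card (μ : Measure Y) (I : Finset ι) (p : Y → ι → Prop) [∀ y, DecidablePred (p y)]
    (hp : ∀ i, MeasurableSet {y | p y i}) :
    ∫⁻ y, ((I.filter (p y)).card : ℝ≥0∞) ∂μ = ∑ i ∈ I, μ {y | p y i} := by
  have : ∀ y, ((I.filter (p y)).card : ℝ≥0∞) = ∑ i ∈ I, {y | p y i}.indicator 1 y := by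
    intro y
    rw [card_filter]
    push_cast
    refine sum_congr rfl fun i _ => ?_
    by_cases h : p y i <;> simp [h]
  simp_rw [this]
  rw [lintegral_finsetSum _ fun i _ => measurable_one.indicator (hp i)]
  exact sum_congr rfl fun i _ => lintegral_indicator_one (hp i)

lemma cm_card (I : Finset ι) (p : Y → ι → Prop) [∀ y, DecidablePred (p y)]
    (hp : ∀ i, MeasurableSet {y | p y i}) :
    Measurable fun y => ((I.filter (p y)).card : ℝ≥0∞) := by
  have : ∀ y, ((I.filter (p y)).card : ℝ≥0∞) = ∑ i ∈ I, {y | p y i}.indicator 1 y := by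
    intro y
    rw [card_filter]
    push_cast
    refine sum_congr rfl fun i _ => ?_
    by_cases h : p y i <;> simp [h]
  simp_rw [this]
  exact Finset.measurable_sum _ fun i _ => measurable_one.indicator (hp i)

lemma lint_ite (μ : Measure Y) (p : Y → Prop) [DecidablePred p] (hp : MeasurableSet {y | p y}) :
    ∫⁻ y, ((if p y then 1 else 0 : ℕ) : ℝ≥0∞) ∂μ = μ {y | p y} := by
  rw [← lintegral_indicator_one hp]
  refine lintegral_congr fun y => ?_
  by_cases h : p y <;> simp [h]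

end

namespace FS
variable {Y E J : Type} [MeasurableSpace Y] [Fintype E] [Countable J] (S : FS Y E J)

structure Ms : Prop where
  mv : ∀ l, Measurable fun y => S.mv y l
  P : ∀ e, MeasurableSet {y | S.P y e}

variable {S} (M : S.Ms) {σ : Y → J → J} (hσ : ∀ j, Cm fun y => σ y j)
include M

omit [Fintype E] [Countable J] in
lemma cm_pres (h : E × Bool) : Cm fun y => S.pres y h := by
  rcases h with ⟨e, _ | _⟩
  · simpa [FG.pres] using (Cm.of_set (M.P e)).pre (M.mv _)
  · simpa [FG.pres] using Cm.of_set (M.P e)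

omit [Fintype E] [Countable J] in
lemma meas_pt (s : Lt) (i : ℕ) : Measurable fun y => S.pt y s i := by
  induction i with
  | zero => simp only [S.pt0]; exact measurable_id
  | succ i ih => simp only [S.ptS]; exact (M.mv _).comp ih

include hσ

lemma cm_HC : Cm (S.HC σ) := by
  have h1 : Cm fun y => fun h => (S.pres y h, S.cls σ y h) :=
    Cm.pi fun h => (cm_pres M h).pair ((Cm.const _).pair ((hσ _).pair ((hσ _).pre (M.mv _))))
  exact h1.comp fun d => (univ.filter fun h => (d h).1).image fun h => (d h).2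

lemma cm_VC : Cm (S.VC σ) := by
  have h1 : Cm fun y => (σ y S.b, fun h => (S.pres y h, σ y (S.src h))) :=
    (hσ _).pair (Cm.pi fun h => (cm_pres M h).pair (hσ _))
  have h2 := h1.comp fun d => insert d.1 ((univ.filter fun h => (d.2 h).1).image fun h => (d.2 h).2)
  have e : S.VC σ = fun y => insert (σ y S.b)
      ((univ.filter fun h => S.pres y h).image fun h => σ y (S.src h)) := by
    funext y
    unfold FG.VC FG.PP
    rw [image_insert, image_image]; rfl
  rw [e]; exact h2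

lemma cm_XX : Cm (S.XX σ) :=
  ((cm_HC M hσ).pair (cm_VC M hσ)).comp fun d => d.1.card - (2 * d.2.card + 2)

omit [Fintype E] in
lemma cm_actv (h h' : E × Bool) {Z : Y → Prop} (hZ : Cm Z) : Cm (S.actv σ h h' Z) :=
  (hZ.pair ((cm_pres M h).pair ((cm_pres M h').pair ((hσ (S.src h)).pair (hσ (S.src h')))))).comp
    fun d => d.1 ∧ d.2.1 ∧ d.2.2.1 ∧ S.lab h = S.lab h' ∧ d.2.2.2.1 = d.2.2.2.2

omit [Fintype E] in
lemma cm_dl (h h' : E × Bool) {Z : Y → Prop} (hZ : Cm Z) : Cm (S.dl σ h h' Z) :=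
  ((cm_actv M hσ h h' hZ).pair (((hσ (S.tgt h)).pre (M.mv (S.lab h))).pair
    ((hσ (S.tgt h')).pre (M.mv (S.lab h))))).comp fun d => d.1 ∧ d.2.1 ≠ d.2.2

omit [Fintype E] in
lemma cm_nxt (h h' : E × Bool) {Z : Y → Prop} (hZ : Cm Z) (j : J) :
    Cm fun y => S.nxt σ h h' Z y j :=
  (((cm_actv M hσ h h' hZ).pre (M.mv (inv (S.lab h)))).pair ((hσ j).pair
    ((hσ (S.tgt h')).pair (hσ (S.tgt h))))).comp
      fun d => if d.1 ∧ d.2.1 = d.2.2.1 then d.2.2.2 else d.2.1

lemma cm_loc (s : Lt) (i : ℕ) (F : Finset (Lt × J × J) → J → J → Prop) :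
    Cm fun y => F (S.HC σ (S.pt y s i)) (σ (S.pt y s i) S.b) (σ (S.pt y s i) (S.vx s i)) :=
  (((cm_HC M hσ).pair ((hσ S.b).pair (hσ (S.vx s i)))).pre (meas_pt M s i)).comp
    fun d => F d.1 d.2.1 d.2.2

lemma meas_U : MeasurableSet {y | (S.sys σ).U y} := by
  have : {y | (S.sys σ).U y} = ⋂ s, ⋂ i, ⋂ (_ : 0 < i), ⋂ (_ : i < 4 ^ S.k),
      {y | (S.sys σ).reg y s i} := by
    ext y; simp only [Set.mem_iInter]; rfl
  rw [this]
  exact .iInter fun s => .iInter fun i => .iInter fun _ => .iInter fun _ =>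
    (cm_loc M hσ s i Rg).set

lemma meas_ch (s : Lt) (l : ℕ) : MeasurableSet {y | (S.sys σ).ch y s l} := by
  have : {y | (S.sys σ).ch y s l} = {_y | 0 < l} ∩ ({_y | l ≤ 4 ^ S.k} ∩
      ((⋂ i, ⋂ (_ : 0 < i), ⋂ (_ : i < l), {y | (S.sys σ).reg y s i}) ∩
        {y | (S.sys σ).irr y s l})) := by
    ext y; simp only [Set.mem_iInter, Set.mem_inter_iff]; rfl
  rw [this]
  exact (MeasurableSet.const _).inter ((MeasurableSet.const _).inter
    ((MeasurableSet.iInter fun i => .iInter fun _ => .iInter fun _ =>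
      (cm_loc M hσ s i Rg).set).inter (cm_loc M hσ s l Ir).set))

omit hσ [Fintype E] in
lemma cm_sg {K : Type} {κ : Y → K} (hκ : ∀ j, MeasurableSet {y | κ y = j})
    (f : ℕ → (E × Bool) × (E × Bool) × K) (r : ℕ) (j : J) : Cm fun y => S.sg κ f r y j := by
  induction r generalizing j with
  | zero => exact Cm.const j
  | succ r ih => exact cm_nxt M ih _ _ (Cm.of_set (hκ _)) j

end FS

end Vale.Agent.P189
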