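import Vale.Agent.P189.Grp

/-! A spectral gap for free actions of the free group on a set. -/

namespace Vale.Agent.P189
open scoped Classical

lemma exists_wd {Ω : Type} [MulAction F2 Ω] (Good : Ω → Prop)
    (hfree : ∀ (v : F2) S, Good S → v • S = S → v = 1) :
    ∃ wd : Ω → F2, ∀ (v : F2) S, Good S → wd (v • S) = v * wd S := by
  let R := MulAction.orbitRel F2 Ω
  have h1 : ∀ S : Ω, ∃ v : F2, v • (Quotient.mk R S).out = S := fun S =>
    R.symm (Quotient.mk_out (s := R) S)
  choose wd hwd using h1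
  refine ⟨wd, fun v S hS => ?_⟩
  have e : Quotient.mk R (v • S) = Quotient.mk R S := Quotient.sound ⟨v, rfl⟩
  have h2 := hwd (v • S)
  rw [e] at h2
  have h3 : (Quotient.mk R S).out = (wd S)⁻¹ • S := by
    rw [eq_inv_smul_iff]; exact hwd S
  rw [h3, smul_smul] at h2
  have h4 : (v⁻¹ * (wd (v • S) * (wd S)⁻¹)) • S = S := by
    rw [mul_smul, h2, inv_smul_smul]
  have h5 := hfree _ S hS h4
  rw [inv_mul_eq_one, eq_mul_inv_iff_mul_eq] at h5
  exact h5.symm

theorem pingpong {Ω : Type} [MulAction F2 Ω] (Good : Ω → Prop)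
    (hfree : ∀ (v : F2) S, Good S → v • S = S → v = 1) (c : Ω → ℝ) (T : Finset Ω)
    (hT : ∀ S ∉ T, c S = 0) (hc : ∀ S, ¬ Good S → c S = 0) :
    ∑' S, c S ^ 2 ≤ 6 * ∑ x : Bool, ∑' S, (c S - c ((FreeGroup.of x : F2)⁻¹ • S)) ^ 2 := by
  obtain ⟨wd, hwd⟩ := exists_wd Good hfree
  let u : Bool → Ω → ℝ := fun x S => if wd S ∈ FreeGroup.startsWith (x, false) then 0 else c S ^ 2
  let v : Bool → Ω → ℝ := fun x S => if wd S ∈ FreeGroup.startsWith (x, true) then c S ^ 2 else 0
  let d : Bool → Ω → ℝ := fun x S => (c S - c ((FreeGroup.of x : F2)⁻¹ • S)) ^ 2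
  have s0 : Summable fun S => c S ^ 2 :=
    summable_of_ne_finset_zero (s := T) fun S h => by simp [hT S h]
  have su : ∀ x, Summable (u x) := fun x =>
    summable_of_ne_finset_zero (s := T) fun S h => by simp [u, hT S h]
  have sv : ∀ x, Summable (v x) := fun x =>
    summable_of_ne_finset_zero (s := T) fun S h => by simp [v, hT S h]
  have sd : ∀ x, Summable (d x) := fun x =>
    summable_of_ne_finset_zero (s := T ∪ T.image fun S => (FreeGroup.of x : F2) • S) fun S h => by
      simp only [Finset.mem_union, Finset.mem_image, not_or, not_exists, not_and] at h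
      have : (FreeGroup.of x : F2)⁻¹ • S ∉ T := fun h' => h.2 _ h' (smul_inv_smul _ _)
      simp [d, hT S h.1, hT _ this]
  have k1 : ∀ x, ∑' S, u x S ≤ 3 / 2 * ∑' S, v x S + 3 * ∑' S, d x S := by
    intro x
    let e : Ω ≃ Ω := MulAction.toPerm (FreeGroup.of x : F2)
    have a1 := ((e.hasSum_iff.2 (sv x).hasSum).mul_left (3 / 2)).add
      ((e.hasSum_iff.2 (sd x).hasSum).mul_left 3)
    refine hasSum_le (fun S => ?_) (su x).hasSum a1
    simp only [Function.comp, e, MulAction.toPerm_apply, u, v, d, inv_smul_smul]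
    by_cases hS : Good S
    · by_cases h : wd S ∈ FreeGroup.startsWith (x, false)
      · rw [if_pos h]
        split_ifs <;> positivity
      · have : wd ((FreeGroup.of x : F2) • S) ∈ FreeGroup.startsWith (x, true) := by
          rw [hwd _ _ hS]
          exact FreeGroup.startsWith_mk_mul (w := (x, true)) _ h
        rw [if_neg h, if_pos this]
        nlinarith [sq_nonneg (3 * c ((FreeGroup.of x : F2) • S) - 2 * c S)]
    · rw [hc S hS]
      refine le_trans (b := 0) (by simp) ?_
      split_ifs <;> positivity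
  have a2 := ((su true).hasSum.add (su false).hasSum).sub
    (((sv true).hasSum.mul_left (3 / 2)).add ((sv false).hasSum.mul_left (3 / 2)))
  have k2 := hasSum_le (fun S => ?_) (s0.hasSum.mul_left (1 / 2)) a2
  · rw [Fintype.sum_bool]
    linarith [k1 true, k1 false]
  · simp only [u, v, FreeGroup.startsWith, Set.mem_ofPred_eq]
    have := sq_nonneg (c S)
    obtain ho | ⟨⟨_ | _, _ | _⟩, ho⟩ := Option.eq_none_or_eq_some (wd S).toWord[0]? <;>
      simp [ho] <;> linarith

end Vale.Agent.P189
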