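import Vale.Agent.P189.Fold

/-! The sequence of foldings and its limit. -/

namespace Vale.Agent.P189
open scoped Classical

lemma exists_fair (M : Type) [Countable M] [Nonempty M] :
    ∃ f : ℕ → M, ∀ m r0, ∃ r, r0 ≤ r ∧ f r = m := by
  obtain ⟨g, hg⟩ := exists_surjective_nat M
  refine ⟨fun r => g (Nat.unpair r).1, fun m r0 => ?_⟩
  obtain ⟨n, rfl⟩ := hg m
  exact ⟨Nat.pair n r0, Nat.right_le_pair _ _, by simp⟩

namespace FG
variable {Y E J K : Type} (G : FG Y E J) (κ : Y → K) (f : ℕ → (E × Bool) × (E × Bool) × K)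

noncomputable def sg : ℕ → Y → J → J
  | 0 => fun _ => id
  | r + 1 => G.nxt (sg r) (f r).1 (f r).2.1 fun y => κ y = (f r).2.2

lemma sg_mono {y : Y} {u v : J} {r r' : ℕ} (hr : r ≤ r') (h : G.sg κ f r y u = G.sg κ f r y v) :
    G.sg κ f r' y u = G.sg κ f r' y v := by
  induction r', hr using Nat.le_induction with
  | base => exact h
  | succ n _ ih => simp only [sg, nxt, ih]

def sim (y : Y) (u v : J) : Prop := ∃ r, G.sg κ f r y u = G.sg κ f r y v

variable {G κ f}

lemma sim.rfl' {y : Y} {u : J} : G.sim κ f y u u := ⟨0, rfl⟩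

lemma sim.symm {y : Y} {u v : J} (h : G.sim κ f y u v) : G.sim κ f y v u :=
  h.imp fun _ h => h.symm

lemma sim.trans {y : Y} {u v w : J} (h : G.sim κ f y u v) (h' : G.sim κ f y v w) :
    G.sim κ f y u w := by
  obtain ⟨r, h⟩ := h
  obtain ⟨r', h'⟩ := h'
  exact ⟨max r r', (G.sg_mono κ f (le_max_left _ _) h).trans (G.sg_mono κ f (le_max_right _ _) h')⟩

lemma sim_fold (hf : ∀ m r0, ∃ r, r0 ≤ r ∧ f r = m) {y : Y} {h h' : E × Bool} (p : G.pres y h)
    (p' : G.pres y h') (hl : G.lab h = G.lab h') (hs : G.sim κ f y (G.src h) (G.src h')) :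
    G.sim κ f (G.mv y (G.lab h)) (G.tgt h) (G.tgt h') := by
  obtain ⟨r0, hr⟩ := hs
  obtain ⟨r, h1, h2⟩ := hf (h, h', κ y) r0
  refine ⟨r + 1, ?_⟩
  simp only [sg, nxt, h2]
  exact G.mg_tgt ⟨rfl, p, p', hl, G.sg_mono κ f h1 hr⟩

variable (G κ f) in
inductive QP : Y → J → List Lt → Y → J → Prop
  | nil {y u v} : G.sim κ f y u v → QP y u [] y v
  | cons {y u h W z v} : G.pres y h → G.sim κ f y u (G.src h) →
      QP (G.mv y (G.lab h)) (G.tgt h) W z v → QP y u (G.lab h :: W) z v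

lemma QP.left {y z : Y} {u u' v : J} {W : List Lt} (h : G.QP κ f y u W z v)
    (hs : G.sim κ f y u' u) : G.QP κ f y u' W z v := by
  cases h with
  | nil h => exact .nil (hs.trans h)
  | cons p s q => exact .cons p (hs.trans s) q

lemma QP.append {y z x : Y} {u v w : J} {W W' : List Lt} (h : G.QP κ f y u W z v)
    (h' : G.QP κ f z v W' x w) : G.QP κ f y u (W ++ W') x w := by
  induction h with
  | nil h => exact h'.left h
  | cons p s _ ih => exact .cons p s (ih h')

lemma QP.cons_inv {y z : Y} {u v : J} {l : Lt} {W : List Lt} (h : G.QP κ f y u (l :: W) z v) :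
    ∃ h, G.lab h = l ∧ G.pres y h ∧ G.sim κ f y u (G.src h) ∧
      G.QP κ f (G.mv y l) (G.tgt h) W z v := by
  generalize hW : l :: W = W' at h
  cases h with
  | nil h => simp at hW
  | cons p s q =>
    simp only [List.cons.injEq] at hW
    obtain ⟨rfl, rfl⟩ := hW
    exact ⟨_, rfl, p, s, q⟩

lemma QP.det (hf : ∀ m r0, ∃ r, r0 ≤ r ∧ f r = m) {W : List Lt} : ∀ {y z z' : Y} {u u' v v' : J},
    G.QP κ f y u W z v → G.QP κ f y u' W z' v' → G.sim κ f y u u' →
      z = z' ∧ G.sim κ f z v v' := by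
  induction W with
  | nil =>
    intro y z z' u u' v v' h h' hs
    cases h with
    | nil a =>
      cases h' with
      | nil b => exact ⟨rfl, (a.symm.trans hs).trans b⟩
  | cons l W ih =>
    intro y z z' u u' v v' h h' hs
    obtain ⟨e, rfl, p, s, q⟩ := h.cons_inv
    obtain ⟨e', h1, p', s', q'⟩ := h'.cons_inv
    exact ih q q' (sim_fold hf p p' h1.symm ((s.symm.trans hs).trans s'))

lemma QP.cancel (hf : ∀ m r0, ∃ r, r0 ≤ r ∧ f r = m) {W W' : List Lt} {l : Lt} :
    ∀ {y z : Y} {u v : J}, G.QP κ f y u (W ++ l :: inv l :: W') z v →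
      G.QP κ f y u (W ++ W') z v := by
  induction W with
  | nil =>
    intro y z u v h
    obtain ⟨e, rfl, p, s, q⟩ := h.cons_inv
    obtain ⟨e', h1, p', s', q'⟩ := q.cons_inv
    have := sim_fold (κ := κ) hf (G.pres_rev p) p' (by simp [h1]) (by simpa using s')
    simp only [lab_rev, G.mv_inv, tgt_rev] at this q'
    exact q'.left (s.trans this)
  | cons a W ih =>
    intro y z u v h
    obtain ⟨e, rfl, p, s, q⟩ := h.cons_inv
    exact .cons p s (ih q)

lemma QP.red (hf : ∀ m r0, ∃ r, r0 ≤ r ∧ f r = m) {W W' : List Lt} {y z : Y} {u v : J}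
    (hr : FreeGroup.Red W W') (h : G.QP κ f y u W z v) : G.QP κ f y u W' z v := by
  induction hr with
  | refl => exact h
  | tail _ st ih =>
    cases st with
    | @not L1 L2 x b => exact QP.cancel hf (l := (x, b)) ih

lemma QP.rev' {y z : Y} {u v : J} {W : List Lt} (h : G.QP κ f y u W z v) :
    G.QP κ f z v (FreeGroup.invRev W) y u := by
  induction h with
  | nil h => exact .nil h.symm
  | @cons y u h W z v p s _ ih =>
    rw [FreeGroup.invRev_cons]
    refine ih.append ?_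
    have e : FreeGroup.invRev [G.lab h] = [G.lab (rev h)] := by
      simp [FreeGroup.invRev, inv]
    rw [e]
    refine .cons (G.pres_rev p) (by simpa using sim.rfl') ?_
    simp only [lab_rev, G.mv_inv, tgt_rev]
    exact .nil s.symm

variable (G κ f) in
def RR (y : Y) (u : J) (g : FreeGroup Bool) (z : Y) (v : J) : Prop :=
  ∃ W, FreeGroup.mk W = g ∧ G.QP κ f y u W z v

lemma RR.mul {y z x : Y} {u v w : J} {g g' : FreeGroup Bool} (h : G.RR κ f y u g z v)
    (h' : G.RR κ f z v g' x w) : G.RR κ f y u (g * g') x w := by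
  obtain ⟨W, rfl, h⟩ := h
  obtain ⟨W', rfl, h'⟩ := h'
  exact ⟨W ++ W', FreeGroup.mul_mk.symm, h.append h'⟩

lemma RR.inv' {y z : Y} {u v : J} {g : FreeGroup Bool} (h : G.RR κ f y u g z v) :
    G.RR κ f z v g⁻¹ y u := by
  obtain ⟨W, rfl, h⟩ := h
  exact ⟨_, FreeGroup.inv_mk.symm, h.rev'⟩

lemma RR.one {y : Y} {u : J} : G.RR κ f y u 1 y u := ⟨[], rfl, .nil sim.rfl'⟩

lemma RR.edge {y : Y} {h : E × Bool} (p : G.pres y h) :
    G.RR κ f y (G.src h) (FreeGroup.mk [G.lab h]) (G.mv y (G.lab h)) (G.tgt h) :=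
  ⟨_, rfl, .cons p sim.rfl' (.nil sim.rfl')⟩

lemma RR.det (hf : ∀ m r0, ∃ r, r0 ≤ r ∧ f r = m) {y z z' : Y} {u v v' : J} {g : FreeGroup Bool}
    (h : G.RR κ f y u g z v) (h' : G.RR κ f y u g z' v') : G.sim κ f z v v' := by
  obtain ⟨W, rfl, h⟩ := h
  obtain ⟨W', e, h'⟩ := h'
  have h1 := h.red hf FreeGroup.reduce.red
  have h2 := h'.red hf FreeGroup.reduce.red
  rw [FreeGroup.reduce.sound e] at h2
  exact (QP.det hf h1 h2 sim.rfl').2

end FG

end Vale.Agent.P189
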