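import Vale.Agent.P189.Word

/-! Walks in a labelled graph fibred over a set of points. -/

namespace Vale.Agent.P189
open Finset
open scoped Classical

structure Sys (Y J : Type) where
  mv : Y → Lt → Y
  mv_inv : ∀ y l, mv (mv y l) (inv l) = y
  HC : Y → Finset (Lt × J × J)
  sym : ∀ y l u v, (l, u, v) ∈ HC y → (inv l, v, u) ∈ HC (mv y l)
  bs : Y → J
  k : ℕ
  pt : Y → Lt → ℕ → Y
  pt0 : ∀ y s, pt y s 0 = y
  ptS : ∀ y s i, pt y s (i + 1) = mv (pt y s i) (ws (4 ^ k) s i)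
  cl : Y → Lt → ℕ → J
  cl0 : ∀ y s, cl y s 0 = bs y
  clL : ∀ y s, cl y s (4 ^ k) = bs (pt y s (4 ^ k))
  step : ∀ y s i, i < 4 ^ k → (ws (4 ^ k) s i, cl y s i, cl y s (i + 1)) ∈ HC (pt y s i)

noncomputable def dg {J : Type} (Q : Finset (Lt × J × J)) (v : J) : ℕ :=
  (Q.filter fun t => t.2.1 = v).card

def Rg {J : Type} (Q : Finset (Lt × J × J)) (b v : J) : Prop := v ≠ b ∧ dg Q v ≤ 2

def Ir {J : Type} (Q : Finset (Lt × J × J)) (b v : J) : Prop :=
  (v ≠ b ∧ 3 ≤ dg Q v) ∨ (v = b ∧ 5 ≤ dg Q v)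

namespace Sys
variable {Y J : Type} (S : Sys Y J)

def IsW (p : ℕ → Y) (u : ℕ → J) (a : ℕ → Lt) (n : ℕ) : Prop :=
  (∀ i < n, p (i + 1) = S.mv (p i) (a i) ∧ (a i, u i, u (i + 1)) ∈ S.HC (p i)) ∧
    ∀ i, i + 1 < n → a (i + 1) ≠ inv (a i)

lemma three {Q : Finset (Lt × J × J)} {v : J} (h : dg Q v ≤ 2) {t0 t1 t2 : Lt × J × J}
    (h0 : t0 ∈ Q) (h1 : t1 ∈ Q) (h2 : t2 ∈ Q) (e0 : t0.2.1 = v) (e1 : t1.2.1 = v)
    (e2 : t2.2.1 = v) (n1 : t0 ≠ t1) (n2 : t0 ≠ t2) : t1 = t2 := by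
  by_contra n3
  have : 2 < dg Q v := by
    unfold dg
    rw [Finset.two_lt_card_iff]
    exact ⟨t0, t1, t2, by simp [h0, e0], by simp [h1, e1], by simp [h2, e2], n1, n2, n3⟩
  omega

lemma follow {p q : ℕ → Y} {u v : ℕ → J} {a b : ℕ → Lt} {n : ℕ} (h1 : S.IsW p u a n)
    (h2 : S.IsW q v b n) (e0 : p 0 = q 0) (e1 : (a 0, u 0, u 1) = (b 0, v 0, v 1))
    (hd : ∀ i, 0 < i → i < n → dg (S.HC (p i)) (u i) ≤ 2) :
    ∀ i < n, p i = q i ∧ (a i, u i, u (i + 1)) = (b i, v i, v (i + 1)) := by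
  intro i
  induction i with
  | zero => exact fun _ => ⟨e0, e1⟩
  | succ i ih =>
    intro hi
    obtain ⟨f0, f1⟩ := ih (by omega)
    simp only [Prod.mk.injEq] at f1
    have g1 := h1.1 i (by omega)
    have g2 := h2.1 i (by omega)
    have hp : p (i + 1) = q (i + 1) := by rw [g1.1, g2.1, f0, f1.1]
    refine ⟨hp, ?_⟩
    have b0 := S.sym _ _ _ _ g1.2
    rw [← g1.1] at b0
    have k2 := (h2.1 (i + 1) hi).2
    rw [← hp] at k2
    refine three (hd (i + 1) (by omega) hi) b0 (h1.1 (i + 1) hi).2 k2 rfl rfl f1.2.2.symm ?_ ?_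
    · intro h
      exact h1.2 i hi (congrArg Prod.fst h).symm
    · intro h
      have := (congrArg Prod.fst h).symm
      simp only at this
      rw [f1.1] at this
      exact h2.2 i hi this

lemma follow_end {p q : ℕ → Y} {u v : ℕ → J} {a b : ℕ → Lt} {n : ℕ} (h1 : S.IsW p u a n)
    (h2 : S.IsW q v b n) (e0 : p 0 = q 0) (e1 : (a 0, u 0, u 1) = (b 0, v 0, v 1))
    (hd : ∀ i, 0 < i → i < n → dg (S.HC (p i)) (u i) ≤ 2) :
    ∀ i ≤ n, p i = q i ∧ u i = v i := by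
  intro i hi
  rcases i with _ | i
  · simp only [Prod.mk.injEq] at e1
    exact ⟨e0, e1.2.1⟩
  · obtain ⟨f0, f1⟩ := S.follow h1 h2 e0 e1 hd i (by omega)
    simp only [Prod.mk.injEq] at f1
    exact ⟨by rw [(h1.1 i (by omega)).1, (h2.1 i (by omega)).1, f0, f1.1], f1.2.2⟩

lemma IsW.mono {S : Sys Y J} {p : ℕ → Y} {u : ℕ → J} {a : ℕ → Lt} {n m : ℕ} (h : S.IsW p u a n)
    (hm : m ≤ n) : S.IsW p u a m :=
  ⟨fun i hi => h.1 i (by omega), fun i hi => h.2 i (by omega)⟩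

lemma IsW.shift {S : Sys Y J} {p : ℕ → Y} {u : ℕ → J} {a : ℕ → Lt} {n : ℕ} (h : S.IsW p u a n)
    (l : ℕ) : S.IsW (fun i => p (l + i)) (fun i => u (l + i)) (fun i => a (l + i)) (n - l) :=
  ⟨fun i hi => h.1 (l + i) (by omega), fun i hi => h.2 (l + i) (by omega)⟩

lemma IsW.rev {S : Sys Y J} {p : ℕ → Y} {u : ℕ → J} {a : ℕ → Lt} {n : ℕ} (h : S.IsW p u a n) :
    S.IsW (fun i => p (n - i)) (fun i => u (n - i)) (fun i => inv (a (n - 1 - i))) n := by
  refine ⟨fun i hi => ?_, fun i hi => ?_⟩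
  · obtain ⟨j, hj⟩ : ∃ j, n - i = j + 1 := ⟨n - i - 1, by omega⟩
    have e1 : n - (i + 1) = j := by omega
    have e2 : n - 1 - i = j := by omega
    have g := h.1 j (by omega)
    simp only [hj, e1, e2]
    refine ⟨by rw [g.1, S.mv_inv], ?_⟩
    rw [g.1]; exact S.sym _ _ _ _ g.2
  · obtain ⟨j, hj⟩ : ∃ j, n - 1 - i = j + 1 := ⟨n - 1 - i - 1, by omega⟩
    have e1 : n - 1 - (i + 1) = j := by omega
    simp only [hj, e1, inv_inv']
    exact fun e => h.2 j (by omega) e.symm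

lemma arc (y : Y) (s : Lt) : S.IsW (S.pt y s) (S.cl y s) (ws (4 ^ S.k) s) (4 ^ S.k) :=
  ⟨fun i hi => ⟨S.ptS y s i, S.step y s i hi⟩, fun i _ => ws_red _ _ _ _⟩

lemma arc0 (y : Y) (s : Lt) : (s, S.bs y, S.cl y s 1) ∈ S.HC y := by
  have := S.step y s 0 (by positivity)
  rwa [ws_zero, S.cl0, S.pt0] at this

lemma four_le (y : Y) : 4 ≤ dg (S.HC y) (S.bs y) := by
  have : (univ : Finset Lt).card ≤ dg (S.HC y) (S.bs y) :=
    Finset.card_le_card_of_injOn (fun s => (s, S.bs y, S.cl y s 1))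
      (fun s _ => by simp [S.arc0]) (fun s _ t _ h => congrArg Prod.fst h)
  simpa using this

lemma D4 (y : Y) (hy : dg (S.HC y) (S.bs y) ≤ 4) {l : Lt} {v : J}
    (h : (l, S.bs y, v) ∈ S.HC y) : v = S.cl y l 1 := by
  have hinj : Set.InjOn (fun t : Lt × J × J => t.1)
      ((S.HC y).filter fun t => t.2.1 = S.bs y : Finset _) := by
    refine Finset.injOn_of_surjOn_of_card_le (t := (univ : Finset Lt)) _ (fun _ _ => by simp)
      (fun s _ => ⟨(s, S.bs y, S.cl y s 1), by simp [S.arc0], rfl⟩) (by simpa [dg] using hy)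
  have := hinj (x₁ := (l, S.bs y, v)) (by simp [h]) (x₂ := (l, S.bs y, S.cl y l 1))
    (by simp [S.arc0]) rfl
  simpa using this

def reg (y : Y) (s : Lt) (i : ℕ) : Prop :=
  Rg (S.HC (S.pt y s i)) (S.bs (S.pt y s i)) (S.cl y s i)

def irr (y : Y) (s : Lt) (i : ℕ) : Prop :=
  Ir (S.HC (S.pt y s i)) (S.bs (S.pt y s i)) (S.cl y s i)

def U (y : Y) : Prop := ∀ s i, 0 < i → i < 4 ^ S.k → S.reg y s i

def ch (y : Y) (s : Lt) (l : ℕ) : Prop :=
  0 < l ∧ l ≤ 4 ^ S.k ∧ (∀ i, 0 < i → i < l → S.reg y s i) ∧ S.irr y s l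

def Bad (y : Y) : Prop := 5 ≤ dg (S.HC y) (S.bs y) ∨ ∃ s l, S.ch y s l

/-- a walk leaving the base vertex agrees at its first step with the arc -/
lemma first {p : ℕ → Y} {u : ℕ → J} {a : ℕ → Lt} {n : ℕ} (h : S.IsW p u a n) (hn : 0 < n)
    (hu : u 0 = S.bs (p 0)) (hd : dg (S.HC (p 0)) (S.bs (p 0)) ≤ 4) :
    (a 0, u 0, u 1) = (ws (4 ^ S.k) (a 0) 0, S.cl (p 0) (a 0) 0, S.cl (p 0) (a 0) 1) := by
  have := (h.1 0 hn).2
  rw [hu] at this
  rw [ws_zero, S.cl0, hu, ← S.D4 _ hd this]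

lemma nx_step (y : Y) (hy : ¬ S.Bad y) (s : Lt)
    (hs : ∃ i, 0 < i ∧ i < 4 ^ S.k ∧ ¬ S.reg y s i) :
    ∃ i, 0 < i ∧ i < 4 ^ S.k ∧ ¬ S.reg y (nx s) i := by
  unfold Bad at hy
  push Not at hy
  obtain ⟨hy4, hch⟩ := hy
  set l := Nat.find hs with hl
  obtain ⟨l0, l1, l2⟩ : 0 < l ∧ l < 4 ^ S.k ∧ ¬ S.reg y s l := Nat.find_spec hs
  have hmin : ∀ i, 0 < i → i < l → S.reg y s i := fun i h0 hi => by
    have := Nat.find_min hs hi
    push Not at this
    exact this h0 (by omega)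
  have hir : ¬ S.irr y s l := fun h => hch s l ⟨l0, l1.le, hmin, h⟩
  have hb : S.cl y s l = S.bs (S.pt y s l) ∧
      dg (S.HC (S.pt y s l)) (S.bs (S.pt y s l)) ≤ 4 := by
    unfold irr Ir at hir
    unfold reg Rg at l2
    push Not at hir l2
    by_cases e : S.cl y s l = S.bs (S.pt y s l)
    · refine ⟨e, ?_⟩
      have := hir.2 e
      rw [e] at this; omega
    · have := hir.1 e
      have := l2 e
      omega
  set z := S.pt y s l with hz
  set s' := inv (ws (4 ^ S.k) s (l - 1)) with hs'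
  have wA := ((S.arc y s).mono l1.le).rev
  have wB := (S.arc z s').mono l1.le
  have f1 := S.first wA l0 (by simpa using hb.1) (by simpa using hb.2)
  simp only [Nat.sub_zero] at f1
  have hdA : ∀ i, 0 < i → i < l → dg (S.HC (S.pt y s (l - i))) (S.cl y s (l - i)) ≤ 2 :=
    fun i h0 hi => (hmin (l - i) (by omega) (by omega)).2
  have e0 : S.pt y s (l - 0) = S.pt z s' 0 := by simp [S.pt0, hz]
  have fl := S.follow wA wB e0 (by simpa using f1) hdA
  have fe := S.follow_end wA wB e0 (by simpa using f1) hdA l le_rfl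
  simp only [Nat.sub_self, S.pt0, S.cl0] at fe
  have hn : ws (4 ^ S.k) s' l = nx s :=
    ws_border S.k s s' l l0 l1 fun i hi => (congrArg Prod.fst (fl i hi).2).symm
  by_contra hP
  push Not at hP
  have wC := (S.arc z s').shift l
  have wD := (S.arc y (nx s)).mono (Nat.sub_le _ l)
  have f2 := S.first wC (by omega) (by simp [← fe.1, ← fe.2]) (by simp only [add_zero, ← fe.1]; omega)
  simp only [add_zero, hn, ← fe.1] at f2
  have fe2 := S.follow_end wD wC (by simp [S.pt0, ← fe.1]) (by simpa [hn] using f2.symm)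
    (fun i h0 hi => (hP i h0 (by omega)).2) _ le_rfl
  have e3 : l + (4 ^ S.k - l) = 4 ^ S.k := by omega
  simp only [e3] at fe2
  refine (hP (4 ^ S.k - l) (by omega) (by omega)).1 ?_
  rw [fe2.1, fe2.2, S.clL]

lemma W3 (y : Y) (hU : S.U y) (s : Lt) (hb : ¬ S.Bad (S.pt y s (4 ^ S.k))) :
    S.U (S.pt y s (4 ^ S.k)) := by
  set z := S.pt y s (4 ^ S.k) with hz
  by_contra hz'
  unfold U at hz'
  push Not at hz'
  obtain ⟨t, ht⟩ := hz'
  have hp : 0 < 4 ^ S.k := by positivity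
  obtain ⟨i, i0, i1, i2⟩ := nx_cycle (fun s => ∃ i, 0 < i ∧ i < 4 ^ S.k ∧ ¬ S.reg z s i)
    (S.nx_step z hb) t (inv (ws (4 ^ S.k) s (4 ^ S.k - 1))) ht
  have hz4 : dg (S.HC z) (S.bs z) ≤ 4 := by
    by_contra h
    exact hb (Or.inl (by omega))
  have wA := (S.arc y s).rev
  have wB := S.arc z (inv (ws (4 ^ S.k) s (4 ^ S.k - 1)))
  have f1 := S.first wA hp (by simp [S.clL]) (by simpa using hz4)
  simp only [Nat.sub_zero] at f1
  have fe := S.follow_end wA wB (by simp [S.pt0, hz]) (by simpa using f1)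
    (fun i h0 hi => (hU s _ (by omega) (by omega)).2) i i1.le
  apply i2
  have := hU s (4 ^ S.k - i) (by omega) (by omega)
  unfold reg at this ⊢
  rwa [fe.1, fe.2] at this

/-- the arrival half edge of a bad channel -/
def arr (y : Y) (s : Lt) (l : ℕ) : Lt × J × J :=
  (inv (ws (4 ^ S.k) s (l - 1)), S.cl y s l, S.cl y s (l - 1))

lemma arr_inj_aux {y y' : Y} {s s' : Lt} {l l' : ℕ} (h : S.ch y s l) (h' : S.ch y' s' l')
    (e : S.pt y s l = S.pt y' s' l') (e' : S.arr y s l = S.arr y' s' l') (hl : l ≤ l') :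
    s = s' ∧ l = l' := by
  have wA := ((S.arc y s).mono h.2.1).rev
  have wB := ((S.arc y' s').mono h'.2.1).rev.mono hl
  have hd : ∀ i, 0 < i → i < l → dg (S.HC (S.pt y s (l - i))) (S.cl y s (l - i)) ≤ 2 :=
    fun i h0 hi => (h.2.2.1 (l - i) (by omega) (by omega)).2
  have l0 := h.1
  have fl := S.follow wA wB (by simpa using e) (by simpa [arr] using e') hd (l - 1) (by omega)
  have fe := S.follow_end wA wB (by simpa using e) (by simpa [arr] using e') hd l le_rfl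
  simp only [Nat.sub_self, S.pt0, S.cl0] at fe fl
  have hll : l = l' := by
    by_contra hne
    refine (h'.2.2.1 (l' - l) (by omega) (by omega)).1 ?_
    rw [← fe.1, ← fe.2]
  subst hll
  refine ⟨?_, rfl⟩
  have := inv_injective (congrArg Prod.fst fl.2)
  simpa [ws_zero] using this

lemma W2 (back : Lt → ℕ → Y) (z : Y) (hb : ∀ s l, S.pt (back s l) s l = z) :
    ((univ ×ˢ range (4 ^ S.k + 1)).filter fun p : Lt × ℕ => S.ch (back p.1 p.2) p.1 p.2).card ≤
      ((S.HC z).filter fun t => Ir (S.HC z) (S.bs z) t.2.1).card := by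
  refine Finset.card_le_card_of_injOn (fun p => S.arr (back p.1 p.2) p.1 p.2) ?_ ?_
  · rintro ⟨s, l⟩ hp
    simp only [coe_filter, Set.mem_ofPred_eq] at hp ⊢
    obtain ⟨_, l0, l1, _, hi⟩ := hp
    have g := (((S.arc (back s l) s).mono l1).rev.1 0 l0).2
    simp only [Nat.sub_zero, hb, zero_add] at g
    unfold irr at hi
    rw [hb] at hi
    exact ⟨g, hi⟩
  · rintro ⟨s, l⟩ hp ⟨s', l'⟩ hp' e
    simp only [coe_filter, Set.mem_ofPred_eq] at hp hp'
    rcases le_total l l' with hl | hl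
    · have := S.arr_inj_aux hp.2 hp'.2 (by rw [hb, hb]) e hl
      simp [this.1, this.2]
    · have := S.arr_inj_aux hp'.2 hp.2 (by rw [hb, hb]) e.symm hl
      simp [this.1, this.2]

end Sys

/-- counting: irregular half edges are controlled by the excess -/
lemma excess {J : Type} (Q : Finset (Lt × J × J)) (V : Finset J) (b : J) (hb : b ∈ V)
    (hV : ∀ t ∈ Q, t.2.1 ∈ V) (h2 : ∀ v ∈ V, 2 ≤ dg Q v) (h4 : 4 ≤ dg Q b) :
    2 * V.card + 2 ≤ Q.card ∧
      (Q.filter fun t => Ir Q b t.2.1).card ≤ 5 * (Q.card - (2 * V.card + 2)) ∧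
      (5 ≤ dg Q b → 1 ≤ Q.card - (2 * V.card + 2)) := by
  have e1 : Q.card = ∑ v ∈ V, dg Q v := Finset.card_eq_sum_card_fiberwise hV
  have e2 : (Q.filter fun t => Ir Q b t.2.1).card = ∑ v ∈ V, if Ir Q b v then dg Q v else 0 := by
    rw [Finset.card_eq_sum_card_fiberwise (f := fun t => t.2.1) (t := V)
      (fun t ht => hV t (Finset.mem_filter.1 ht).1)]
    refine Finset.sum_congr rfl fun v _ => ?_
    rw [Finset.filter_comm]
    split_ifs with h
    · unfold dg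
      congr 1
      exact Finset.filter_true_of_mem fun t ht => by rwa [(Finset.mem_filter.1 ht).2]
    · rw [Finset.card_eq_zero]
      exact Finset.filter_false_of_mem fun t ht => by rwa [(Finset.mem_filter.1 ht).2]
  set c : J → ℕ := fun v => if v = b then 4 else 2 with hc
  have e3 : ∑ v ∈ V, c v = 2 * V.card + 2 := by
    rw [← Finset.add_sum_erase V _ hb, Finset.sum_congr rfl (g := fun _ => 2)
      (fun v hv => by simp [hc, (Finset.mem_erase.1 hv).1])]
    have := Finset.card_erase_add_one hb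
    simp only [hc, if_true, Finset.sum_const, smul_eq_mul]
    omega
  have hcle : ∀ v ∈ V, c v ≤ dg Q v := fun v hv => by
    simp only [hc]; split_ifs with h
    · rw [h]; exact h4
    · exact h2 v hv
  have e4 : Q.card = ∑ v ∈ V, (dg Q v - c v) + (2 * V.card + 2) := by
    rw [e1, ← e3, ← Finset.sum_add_distrib]
    exact Finset.sum_congr rfl fun v hv => by have := hcle v hv; omega
  have e5 : Q.card - (2 * V.card + 2) = ∑ v ∈ V, (dg Q v - c v) := by omega
  refine ⟨by omega, ?_, fun h5 => ?_⟩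
  · rw [e5, e2, Finset.mul_sum]
    refine Finset.sum_le_sum fun v _ => ?_
    split_ifs with h
    · rcases h with h | h
      · simp only [hc, if_neg h.1]; omega
      · simp only [hc, if_pos h.1]; omega
    · omega
  · rw [e5]
    refine le_trans ?_ (Finset.single_le_sum (f := fun v => dg Q v - c v)
      (fun _ _ => Nat.zero_le _) hb)
    simp only [hc, if_true]; omega

end Vale.Agent.P189
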